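import Crest.Agent.R241.Calc

/-!
# Block C0: basic API of chains.  Helper prefix `basic_`.
Everything reduces to the single charts (`ae_par_iff`, `lintegral_par`, `integral_par`) and `Calc`.
-/

open MeasureTheory Set Filter Topology
open Crest.GeometryTopology.MetricCurrent
open Crest.GeometryTopology.Submanifold (Euc unitBallVol unitSphereArea)
open scoped ENNReal NNReal InnerProductSpace

noncomputable section

namespace Crest.Agent.R241

universe u

section lip

variable {X : Type u} [MetricSpace X] {k : ℕ} {f g : X → ℝ}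

theorem Lip.const (a : ℝ) : Lip fun _ : X => a := ⟨0, LipschitzWith.const a⟩
theorem Lip.continuous (hf : Lip f) : Continuous f := hf.elim fun _ h => h.continuous
theorem Lip.add (hf : Lip f) (hg : Lip g) : Lip fun y => f y + g y := by
  obtain ⟨_, hf⟩ := hf
  obtain ⟨_, hg⟩ := hg
  exact ⟨_, hf.add hg⟩
theorem Lip.neg (hf : Lip f) : Lip fun y => -f y := by
  obtain ⟨_, hf⟩ := hf
  exact ⟨_, hf.neg⟩
theorem Lip.sub (hf : Lip f) (hg : Lip g) : Lip fun y => f y - g y := by
  obtain ⟨_, hf⟩ := hf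
  obtain ⟨_, hg⟩ := hg
  exact ⟨_, hf.sub hg⟩
theorem Lip.const_mul (a : ℝ) (hf : Lip f) : Lip fun y => a * f y := by
  obtain ⟨_, hf⟩ := hf
  exact ⟨_, (lipschitzWith_smul a).comp hf⟩
theorem Lip.comp {Y : Type u} [MetricSpace Y] (hf : Lip f) {h : Y → X} {K : ℝ≥0}
    (hh : LipschitzWith K h) : Lip fun y => f (h y) := by
  obtain ⟨_, hf⟩ := hf
  exact ⟨_, hf.comp hh⟩
theorem Lip.dist_left (x : X) : Lip fun y => dist y x := by
  exact ⟨_, LipschitzWith.dist_left x⟩
theorem Lip.dist_right (x : X) : Lip fun y => dist x y := by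
  exact ⟨_, LipschitzWith.dist_right x⟩
theorem basic_comp [CompactSpace X] {F : Type*} [NormedAddCommGroup F] [NormedSpace ℝ F] {u : X → F}
    {K : ℝ≥0} (hu : LipschitzWith K u) {Φ : F → ℝ} (hΦ : ContDiff ℝ 1 Φ) : Lip fun y => Φ (u y) := by
  obtain ⟨L, hL⟩ := LocallyLipschitzOn.exists_lipschitzOnWith_of_compact
    (isCompact_range hu.continuous) hΦ.locallyLipschitz.locallyLipschitzOn
  exact ⟨_, lipschitzOnWith_univ.1 (hL.comp hu.lipschitzOnWith fun y _ => mem_range_self y)⟩
theorem Lip.mul [CompactSpace X] (hf : Lip f) (hg : Lip g) : Lip fun y => f y * g y := by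
  obtain ⟨_, hf⟩ := hf
  obtain ⟨_, hg⟩ := hg
  exact basic_comp (hf.prodMk hg) (Φ := fun p : ℝ × ℝ => p.1 * p.2) (by fun_prop)
/-- a `C¹` function of finitely many Lipschitz functions on a compact space -/
theorem Lip.contDiff_comp [CompactSpace X] {m : ℕ} {u : Fin m → X → ℝ} (hu : ∀ i, Lip (u i))
    {Φ : (Fin m → ℝ) → ℝ} (hΦ : ContDiff ℝ 1 Φ) : Lip fun y => Φ fun i => u i y := by
  choose K hK using hu
  refine basic_comp (K := Finset.univ.sup K) (LipschitzWith.of_dist_le_mul fun x y => ?_) hΦ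
  refine (dist_pi_le_iff (by positivity)).2 fun i => ((hK i).dist_le_mul x y).trans ?_
  exact mul_le_mul_of_nonneg_right (NNReal.coe_le_coe.2 (Finset.le_sup (Finset.mem_univ i)))
    dist_nonneg
theorem Lip.contDiff_comp₁ [CompactSpace X] (hf : Lip f) {Φ : ℝ → ℝ} (hΦ : ContDiff ℝ 1 Φ) :
    Lip fun y => Φ (f y) := by
  obtain ⟨_, hf⟩ := hf
  exact basic_comp hf hΦ

theorem isTestPair_iff [CompactSpace X] {π : Fin k → X → ℝ} :
    IsTestPair f π ↔ Lip f ∧ ∀ a, Lip (π a) := by
  refine ⟨fun h => ⟨h.1, h.2.2⟩, fun h => ⟨h.1, ?_, h.2⟩⟩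
  obtain ⟨C, hC⟩ := isCompact_univ.exists_bound_of_continuousOn h.1.continuous.continuousOn
  exact ⟨C, fun x => hC x (mem_univ x)⟩
theorem isTestPair_cons {π : Fin k → X → ℝ} (h : IsTestPair f π) :
    IsTestPair (fun _ => 1) (Fin.cons f π : Fin (k + 1) → X → ℝ) := by
  refine ⟨Lip.const 1, ⟨1, fun _ => by simp⟩, fun i => ?_⟩
  refine Fin.cases ?_ (fun j => ?_) i
  · exact h.1
  · exact h.2.2 j
theorem isTestPair_comp {Y : Type u} [MetricSpace Y] {π : Fin k → X → ℝ} (hf : IsTestPair f π)
    {h : Y → X} {K : ℝ≥0} (hh : LipschitzWith K h) :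
    IsTestPair (fun y => f (h y)) fun a y => π a (h y) := by
  obtain ⟨h1, ⟨C, h2⟩, h3⟩ := hf
  exact ⟨Lip.comp h1 hh, ⟨C, fun y => h2 _⟩, fun a => Lip.comp (h3 a) hh⟩

end lip

namespace Ch

variable {X : Type u} [MetricSpace X] {k : ℕ} (c : Ch X k)

/-! ### the parameter measure -/

theorem par_univ : c.par univ = ∑' i, volume (c.E i) := by
  rw [par, Measure.sum_apply _ MeasurableSet.univ]
  refine tsum_congr fun i => ?_
  rw [Measure.map_apply measurable_prodMk_left MeasurableSet.univ, preimage_univ,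
    Measure.restrict_apply_univ]
instance : IsFiniteMeasure c.par := ⟨by rw [par_univ]; exact c.fin.lt_top⟩
theorem area_nonneg : 0 ≤ c.area := measureReal_nonneg
theorem area_eq : c.area = (∑' i, volume (c.E i)).toReal := by rw [area, Measure.real, par_univ]
theorem ae_par_iff {P : ℕ × Euc k → Prop} :
    (∀ᵐ w ∂c.par, P w) ↔ ∀ i, ∀ᵐ z ∂volume.restrict (c.E i), P (i, z) := by
  rw [par, Measure.ae_sum_iff]
  exact forall_congr' fun i => (measurableEmbedding_prodMk_left i).ae_map_iff
theorem lintegral_par (F : ℕ × Euc k → ℝ≥0∞) :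
    ∫⁻ w, F w ∂c.par = ∑' i, ∫⁻ z in c.E i, F (i, z) := by
  rw [par, lintegral_sum_measure]
  exact tsum_congr fun i => (measurableEmbedding_prodMk_left i).lintegral_map F
theorem hasSum_integral_par {F : ℕ × Euc k → ℝ} (hF : Integrable F c.par) :
    HasSum (fun i => ∫ z in c.E i, F (i, z)) (∫ w, F w ∂c.par) := by
  have := hasSum_integral_measure hF
  simp only [(measurableEmbedding_prodMk_left _).integral_map] at this
  exact this
theorem aemeasurable_par_iff {β : Type*} [MeasurableSpace β] {F : ℕ × Euc k → β} :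
    AEMeasurable F c.par ↔ ∀ i, AEMeasurable (fun z => F (i, z)) (volume.restrict (c.E i)) := by
  rw [par, aemeasurable_sum_measure_iff]
  exact forall_congr' fun i => (measurableEmbedding_prodMk_left i).aemeasurable_map_iff
theorem ae_mem : ∀ᵐ w ∂c.par, w.2 ∈ c.E w.1 := by
  exact c.ae_par_iff.2 fun i => ae_restrict_mem (c.meas i)
theorem In.ae {c : Ch X k} {K : Set X} (h : c.In K) : ∀ᵐ w ∂c.par, c.pt w ∈ K := by
  exact c.ae_mem.mono fun w hw => h w.1 hw
theorem In.mono {c : Ch X k} {K K' : Set X} (h : c.In K) (hK : K ⊆ K') : c.In K' :=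
  fun i => (h i).mono_right hK
theorem in_univ : c.In univ := fun _ => mapsTo_univ _ _
theorem area_eq_zero_of_in_empty (h : c.In ∅) : c.area = 0 := by
  have : ∀ i, c.E i = ∅ := fun i => eq_empty_of_forall_notMem fun z hz => h i hz
  simp [area_eq, this]
theorem aemeasurable_pt [MeasurableSpace X] [BorelSpace X] : AEMeasurable c.pt c.par := by
  exact c.aemeasurable_par_iff.2 fun i => (c.lip i).continuousOn.aemeasurable (c.meas i)
theorem aesm_comp_pt {f : X → ℝ} (hf : Continuous f) :
    AEStronglyMeasurable (fun w => f (c.pt w)) c.par := by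
  exact (c.aemeasurable_par_iff.2 fun i =>
    (hf.comp_continuousOn (c.lip i).continuousOn).aemeasurable (c.meas i)).aestronglyMeasurable
theorem integrable_comp_pt [CompactSpace X] {f : X → ℝ} (hf : Continuous f) :
    Integrable (fun w => f (c.pt w)) c.par := by
  obtain ⟨C, hC⟩ := isCompact_univ.exists_bound_of_continuousOn hf.continuousOn
  exact Integrable.of_bound (c.aesm_comp_pt hf) C (Eventually.of_forall fun w => hC _ (mem_univ _))
theorem abs_sg (i : ℕ) : |c.sg i| = 1 := by rcases c.hsg i with h | h <;> simp [h]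

/-! ### gradients -/

theorem inner_grad (u : X → ℝ) (w : ℕ × Euc k) (v : Euc k) :
    ⟪c.grad u w, v⟫_ℝ = fderivWithin ℝ (fun z => u (c.φ w.1 z)) (c.E w.1) w.2 v := by
  exact InnerProductSpace.toDual_symm_apply

theorem norm_grad (u : X → ℝ) (w : ℕ × Euc k) :
    ‖c.grad u w‖ = ‖fderivWithin ℝ (fun z => u (c.φ w.1 z)) (c.E w.1) w.2‖ := by
  exact LinearIsometryEquiv.norm_map _ _

theorem basic_grad_apply (u : X → ℝ) (w : ℕ × Euc k) (j : Fin k) :
    c.grad u w j = fderivWithin ℝ (fun z => u (c.φ w.1 z)) (c.E w.1) w.2 (EuclideanSpace.single j 1) := by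
  rw [← inner_grad, EuclideanSpace.inner_single_right, one_mul, conj_trivial]

theorem jac_eq (π : Fin k → X → ℝ) (w : ℕ × Euc k) :
    c.jac π w = (Matrix.of fun a j => c.grad (π a) w j).det := by
  simp only [basic_grad_apply]
  rfl

theorem ae_uniqueDiff : ∀ᵐ w ∂c.par, UniqueDiffWithinAt ℝ (c.E w.1) w.2 := by
  exact c.ae_par_iff.2 fun i => ae_uniqueDiffWithinAt (c.meas i)

theorem basic_lipOn {u : X → ℝ} {L : ℝ≥0} (hu : LipschitzWith L u) (i : ℕ) :
    LipschitzOnWith L (fun z => u (c.φ i z)) (c.E i) := by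
  have := hu.comp_lipschitzOnWith (c.lip i)
  rwa [mul_one] at this

theorem ae_hasGradient {u : X → ℝ} (hu : Lip u) : ∀ᵐ w ∂c.par,
    HasGradientWithinAt (fun z => u (c.φ w.1 z)) (c.grad u w) (c.E w.1) w.2 := by
  obtain ⟨L, hL⟩ := hu
  exact c.ae_par_iff.2 fun i => ((c.basic_lipOn hL i).ae_differentiableWithinAt (c.meas i)).mono
    fun z hz => hz.hasGradientWithinAt

theorem aesm_grad {u : X → ℝ} (hu : Lip u) : AEStronglyMeasurable (c.grad u) c.par := by
  obtain ⟨L, hL⟩ := hu
  have h : AEMeasurable (fun w j => c.grad u w j) c.par := aemeasurable_pi_lambda _ fun j => by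
    simp only [basic_grad_apply]
    exact c.aemeasurable_par_iff.2 fun i => aemeasurable_fderivWithin (c.meas i) (c.basic_lipOn hL i) _
  exact ((PiLp.continuous_toLp 2 _).measurable.comp_aemeasurable h).aestronglyMeasurable

theorem ae_norm_grad_le {u : X → ℝ} {L : ℝ≥0} (hu : LipschitzWith L u) :
    ∀ᵐ w ∂c.par, ‖c.grad u w‖ ≤ L := by
  refine c.ae_par_iff.2 fun i => (ae_norm_fderivWithin_le (c.meas i) (c.basic_lipOn hu i)).mono fun z hz => ?_
  rwa [norm_grad]

theorem integrable_grad {u : X → ℝ} (hu : Lip u) : Integrable (c.grad u) c.par := by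
  obtain ⟨L, hL⟩ := hu
  exact Integrable.of_bound (c.aesm_grad ⟨L, hL⟩) L (c.ae_norm_grad_le hL)

theorem grad_const (a : ℝ) (w : ℕ × Euc k) : c.grad (fun _ => a) w = 0 := by
  rw [← norm_eq_zero, norm_grad, fderivWithin_fun_const, Pi.zero_apply, norm_zero]

theorem grad_congr {u v : X → ℝ} {K : Set X} (hK : c.In K) (h : EqOn u v K) :
    ∀ᵐ w ∂c.par, c.grad u w = c.grad v w := by
  filter_upwards [c.ae_mem] with w hw
  exact congrArg _ (fderivWithin_congr' (fun z hz => h (hK _ hz)) hw)

theorem basic_grad_eq {u : X → ℝ} {w : ℕ × Euc k} {v : Euc k} {D : Euc k →L[ℝ] ℝ}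
    (h0 : UniqueDiffWithinAt ℝ (c.E w.1) w.2) (h : HasFDerivWithinAt (fun z => u (c.φ w.1 z)) D (c.E w.1) w.2)
    (e : InnerProductSpace.toDual ℝ (Euc k) v = D) : c.grad u w = v := by
  rw [grad, gradientWithin, h.fderivWithin h0, ← e, LinearIsometryEquiv.symm_apply_apply]

theorem grad_add {u v : X → ℝ} (hu : Lip u) (hv : Lip v) :
    ∀ᵐ w ∂c.par, c.grad (fun y => u y + v y) w = c.grad u w + c.grad v w := by
  filter_upwards [c.ae_uniqueDiff, c.ae_hasGradient hu, c.ae_hasGradient hv] with w h0 h1 h2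
  exact c.basic_grad_eq h0 (h1.hasFDerivWithinAt.add h2.hasFDerivWithinAt) (map_add _ _ _)

theorem grad_sub {u v : X → ℝ} (hu : Lip u) (hv : Lip v) :
    ∀ᵐ w ∂c.par, c.grad (fun y => u y - v y) w = c.grad u w - c.grad v w := by
  filter_upwards [c.ae_uniqueDiff, c.ae_hasGradient hu, c.ae_hasGradient hv] with w h0 h1 h2
  exact c.basic_grad_eq h0 (h1.hasFDerivWithinAt.sub h2.hasFDerivWithinAt) (map_sub _ _ _)

theorem grad_const_mul (a : ℝ) {u : X → ℝ} (hu : Lip u) :
    ∀ᵐ w ∂c.par, c.grad (fun y => a * u y) w = a • c.grad u w := by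
  filter_upwards [c.ae_uniqueDiff, c.ae_hasGradient hu] with w h0 h1
  exact c.basic_grad_eq h0 (h1.hasFDerivWithinAt.const_mul a) (by ext; simp)

theorem grad_mul {u v : X → ℝ} (hu : Lip u) (hv : Lip v) : ∀ᵐ w ∂c.par,
    c.grad (fun y => u y * v y) w = u (c.pt w) • c.grad v w + v (c.pt w) • c.grad u w := by
  filter_upwards [c.ae_uniqueDiff, c.ae_hasGradient hu, c.ae_hasGradient hv] with w h0 h1 h2
  exact c.basic_grad_eq h0 (h1.hasFDerivWithinAt.mul h2.hasFDerivWithinAt)
    (by ext; simp [pt])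

/-- chain rule; `Φ` only needs to be differentiable at the values of `u` -/
theorem grad_comp₁ {u : X → ℝ} (hu : Lip u) {Φ : ℝ → ℝ} (hΦ : ∀ y, DifferentiableAt ℝ Φ (u y)) :
    ∀ᵐ w ∂c.par, c.grad (fun y => Φ (u y)) w = deriv Φ (u (c.pt w)) • c.grad u w := by
  filter_upwards [c.ae_uniqueDiff, c.ae_hasGradient hu] with w h0 h1
  exact c.basic_grad_eq h0 ((hΦ _).hasDerivAt.comp_hasFDerivWithinAt w.2 h1.hasFDerivWithinAt)
    (by ext; simp [pt])

theorem grad_comp {m : ℕ} {u : Fin m → X → ℝ} (hu : ∀ i, Lip (u i)) {Φ : (Fin m → ℝ) → ℝ}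
    (hΦ : Differentiable ℝ Φ) : ∀ᵐ w ∂c.par, c.grad (fun y => Φ fun i => u i y) w
      = ∑ i, fderiv ℝ Φ (fun i => u i (c.pt w)) (Pi.single i 1) • c.grad (u i) w := by
  filter_upwards [c.ae_uniqueDiff, ae_all_iff.2 fun i => c.ae_hasGradient (hu i)] with w h0 h1
  refine c.basic_grad_eq h0 ((hΦ _).hasFDerivAt.comp_hasFDerivWithinAt w.2
    (hasFDerivWithinAt_pi.2 fun i => (h1 i).hasFDerivWithinAt)) ?_
  ext v
  rw [ContinuousLinearMap.comp_apply, pi_eq_sum_univ' (ContinuousLinearMap.pi _ v), map_sum]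
  simp [pt, mul_comm]

/-- the gradient vanishes a.e. on level sets -/
theorem grad_eq_zero_of_eq {u : X → ℝ} (hu : Lip u) (a : ℝ) :
    ∀ᵐ w ∂c.par, u (c.pt w) = a → c.grad u w = 0 := by
  obtain ⟨L, hL⟩ := hu
  refine c.ae_par_iff.2 fun i => (ae_fderivWithin_eq_zero (c.meas i) (c.basic_lipOn hL i) a).mono fun z hz h => ?_
  rw [← norm_eq_zero, norm_grad, hz h, norm_zero]

/-- gradients agree a.e. where the functions agree -/
theorem grad_eq_of_eq {u v : X → ℝ} (hu : Lip u) (hv : Lip v) :
    ∀ᵐ w ∂c.par, u (c.pt w) = v (c.pt w) → c.grad u w = c.grad v w := by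
  filter_upwards [c.grad_sub hu hv, c.grad_eq_zero_of_eq (hu.sub hv) 0] with w h1 h2 h
  exact sub_eq_zero.1 (h1.symm.trans (h2 (sub_eq_zero.2 h)))

/-! ### the action -/

theorem ae_abs_jac_le {π : Fin k → X → ℝ} :
    ∀ w, |c.jac π w| ≤ ∏ a, ‖c.grad (π a) w‖ := by
  intro w
  rw [jac_eq]
  exact abs_det_le_prod fun a => c.grad (π a) w
theorem aesm_jac {π : Fin k → X → ℝ} (hπ : ∀ a, Lip (π a)) :
    AEStronglyMeasurable (c.jac π) c.par := by
  have h1 : AEMeasurable (fun w a => c.grad (π a) w) c.par :=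
    aemeasurable_pi_lambda _ fun a => (c.aesm_grad (hπ a)).aemeasurable
  have h2 : Continuous fun v : Fin k → Euc k => (Matrix.of fun a j => v a j).det :=
    Continuous.matrix_det (by
      refine continuous_pi fun a => continuous_pi fun j => ?_
      simp only [Matrix.of_apply]
      fun_prop)
  have h3 := (h2.measurable.comp_aemeasurable h1).aestronglyMeasurable
  exact h3.congr (Eventually.of_forall fun w => (c.jac_eq π w).symm)
theorem basic_jac_le {π : Fin k → X → ℝ} {L : Fin k → ℝ≥0} (hL : ∀ a, LipschitzWith (L a) (π a)) :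
    ∀ᵐ w ∂c.par, |c.jac π w| ≤ ∏ a, (L a : ℝ) := by
  filter_upwards [ae_all_iff.2 fun a => c.ae_norm_grad_le (hL a)] with w hw
  exact (c.ae_abs_jac_le w).trans (Finset.prod_le_prod (fun _ _ => norm_nonneg _) fun a _ => hw a)
/-- general weight `ρ` on the parameter space -/
theorem integrable_mul_jac {ρ : ℕ × Euc k → ℝ} (hρ : Integrable ρ c.par) {π : Fin k → X → ℝ}
    (hπ : ∀ a, Lip (π a)) : Integrable (fun w => ρ w * c.jac π w) c.par := by
  choose L hL using hπ
  exact hρ.mul_bdd (c.aesm_jac fun a => ⟨L a, hL a⟩) (c.basic_jac_le hL)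
theorem basic_integrable {f : X → ℝ} {π : Fin k → X → ℝ} (h : IsTestPair f π) :
    Integrable (fun w => f (c.pt w)) c.par := by
  obtain ⟨⟨K, hK⟩, ⟨C, hC⟩, -⟩ := h
  exact Integrable.of_bound (c.aesm_comp_pt hK.continuous) C (Eventually.of_forall fun w => hC _)
theorem integrable_act {f : X → ℝ} {π : Fin k → X → ℝ} (h : IsTestPair f π) :
    Integrable (fun w => c.sg w.1 * f (c.pt w) * c.jac π w) c.par := by
  refine c.integrable_mul_jac ?_ h.2.2
  have h1 : Measurable fun w : ℕ × Euc k => c.sg w.1 := (measurable_of_countable c.sg).comp measurable_fst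
  exact (c.basic_integrable h).bdd_mul (c := 1) h1.aestronglyMeasurable
    (Eventually.of_forall fun w => (c.abs_sg w.1).le)
theorem hasSum_act {f : X → ℝ} {π : Fin k → X → ℝ} (h : IsTestPair f π) :
    HasSum (fun i => c.sg i * ∫ z in c.E i, f (c.φ i z) * jacOn (c.E i) (c.φ i) π z)
      (c.act f π) := by
  have h1 := c.hasSum_integral_par (c.integrable_act h)
  have e : ∀ i, c.sg i * ∫ z in c.E i, f (c.φ i z) * jacOn (c.E i) (c.φ i) π z
      = ∫ z in c.E i, c.sg (i, z).1 * f (c.pt (i, z)) * c.jac π (i, z) := fun i => by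
    rw [← integral_const_mul]
    exact integral_congr_ae (Eventually.of_forall fun z => (mul_assoc _ _ _).symm)
  simp only [e]
  exact h1
theorem abs_act_le {f : X → ℝ} {π : Fin k → X → ℝ} (h : IsTestPair f π) {L : Fin k → ℝ≥0}
    (hL : ∀ a, LipschitzWith (L a) (π a)) :
    |c.act f π| ≤ (∏ a, (L a : ℝ)) * ∫ w, |f (c.pt w)| ∂c.par := by
  rw [← integral_const_mul, ← Real.norm_eq_abs]
  refine norm_integral_le_of_norm_le ((c.basic_integrable h).abs.const_mul _) ?_
  filter_upwards [c.basic_jac_le hL] with w hw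
  rw [Real.norm_eq_abs, abs_mul, abs_mul, c.abs_sg, one_mul, mul_comm]
  exact mul_le_mul_of_nonneg_right hw (abs_nonneg _)
theorem act_congr {K : Set X} (hK : c.In K) {f f' : X → ℝ} {π π' : Fin k → X → ℝ}
    (hf : EqOn f f' K) (hπ : ∀ a, EqOn (π a) (π' a) K) : c.act f π = c.act f' π' := by
  refine integral_congr_ae ?_
  filter_upwards [hK.ae, ae_all_iff.2 fun a => c.grad_congr hK (hπ a)] with w h1 h2
  rw [hf h1, jac_eq, jac_eq]
  simp only [h2]
theorem act_add_left {f g : X → ℝ} {π : Fin k → X → ℝ} (hf : IsTestPair f π)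
    (hg : IsTestPair g π) : c.act (fun y => f y + g y) π = c.act f π + c.act g π := by
  rw [act, act, act, ← integral_add (c.integrable_act hf) (c.integrable_act hg)]
  exact integral_congr_ae (Eventually.of_forall fun w => by ring)
theorem act_const_mul_left (a : ℝ) (f : X → ℝ) (π : Fin k → X → ℝ) :
    c.act (fun y => a * f y) π = a * c.act f π := by
  rw [act, act, ← integral_const_mul]
  exact integral_congr_ae (Eventually.of_forall fun w => by ring)
theorem basic_jac_update (π : Fin k → X → ℝ) (a : Fin k) (g : X → ℝ) (w : ℕ × Euc k) :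
    c.jac (Function.update π a g) w
      = ((Matrix.of fun b j => c.grad (π b) w j).updateRow a (c.grad g w).ofLp).det := by
  rw [jac_eq]
  congr 1
  ext b j
  rcases eq_or_ne b a with rfl | hb
  · simp
  · simp [Function.update_of_ne hb, Matrix.updateRow_ne hb]
theorem basic_tp_update {f : X → ℝ} {π : Fin k → X → ℝ} (h : IsTestPair f π) (a : Fin k) {g : X → ℝ}
    (hg : Lip g) : IsTestPair f (Function.update π a g) := by
  refine ⟨h.1, h.2.1, fun b => ?_⟩
  rcases eq_or_ne b a with rfl | hb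
  · rw [Function.update_self]; exact hg
  · rw [Function.update_of_ne hb]; exact h.2.2 b
theorem act_update_add {f : X → ℝ} {π : Fin k → X → ℝ} (h : IsTestPair f π) (a : Fin k)
    {g g' : X → ℝ} (hg : Lip g) (hg' : Lip g') :
    c.act f (Function.update π a fun y => g y + g' y)
      = c.act f (Function.update π a g) + c.act f (Function.update π a g') := by
  rw [act, act, act, ← integral_add (c.integrable_act (basic_tp_update h a hg))
    (c.integrable_act (basic_tp_update h a hg'))]
  refine integral_congr_ae ?_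
  filter_upwards [c.grad_add hg hg'] with w hw
  rw [basic_jac_update, basic_jac_update, basic_jac_update, hw, WithLp.ofLp_add, Matrix.det_updateRow_add]
  ring
theorem act_update_const_mul (f : X → ℝ) {π : Fin k → X → ℝ} (a : Fin k) (t : ℝ)
    {g : X → ℝ} (hg : Lip g) :
    c.act f (Function.update π a fun y => t * g y) = t * c.act f (Function.update π a g) := by
  rw [act, act, ← integral_const_mul]
  refine integral_congr_ae ?_
  filter_upwards [c.grad_const_mul t hg] with w hw
  rw [basic_jac_update, basic_jac_update, hw, WithLp.ofLp_smul, Matrix.det_updateRow_smul]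
  ring
/-- Leibniz rule in a coordinate -/
theorem act_update_mul [CompactSpace X] {f : X → ℝ} {π : Fin k → X → ℝ} (h : IsTestPair f π)
    (a : Fin k) {g g' : X → ℝ} (hg : Lip g) (hg' : Lip g') :
    c.act f (Function.update π a fun y => g y * g' y)
      = c.act (fun y => f y * g y) (Function.update π a g')
        + c.act (fun y => f y * g' y) (Function.update π a g) := by
  have h1 : IsTestPair (fun y => f y * g y) π := isTestPair_iff.2 ⟨Lip.mul h.1 hg, h.2.2⟩
  have h2 : IsTestPair (fun y => f y * g' y) π := isTestPair_iff.2 ⟨Lip.mul h.1 hg', h.2.2⟩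
  rw [act, act, act, ← integral_add (c.integrable_act (basic_tp_update h1 a hg'))
    (c.integrable_act (basic_tp_update h2 a hg))]
  refine integral_congr_ae ?_
  filter_upwards [c.grad_mul hg hg'] with w hw
  rw [basic_jac_update, basic_jac_update, basic_jac_update, hw, WithLp.ofLp_add, WithLp.ofLp_smul,
    WithLp.ofLp_smul, Matrix.det_updateRow_add, Matrix.det_updateRow_smul, Matrix.det_updateRow_smul]
  ring
theorem act_perm (f : X → ℝ) (π : Fin k → X → ℝ) (s : Equiv.Perm (Fin k)) :
    c.act f (fun a => π (s a)) = (Equiv.Perm.sign s : ℤ) * c.act f π := by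
  rw [act, act, ← integral_const_mul]
  refine integral_congr_ae (Eventually.of_forall fun w => ?_)
  have h := Matrix.det_permute s (Matrix.of fun a j => c.grad (π a) w j)
  have e : c.jac (fun a => π (s a)) w = (Equiv.Perm.sign s : ℤ) * c.jac π w := by
    rw [jac_eq, jac_eq, ← h]
    rfl
  simp only [e]
  ring
theorem basic_jac_zero {π : Fin k → X → ℝ} {a : Fin k} {w : ℕ × Euc k} (h : c.grad (π a) w = 0) :
    c.jac π w = 0 := by
  rw [jac_eq]
  exact Matrix.det_eq_zero_of_row_eq_zero a fun j => by simp [h]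
theorem act_eq_zero_of_const (f : X → ℝ) {π : Fin k → X → ℝ} {a : Fin k} {t : ℝ}
    (h : π a = fun _ => t) : c.act f π = 0 := by
  refine integral_eq_zero_of_ae (Eventually.of_forall fun w => ?_)
  change _ * c.jac π w = 0
  rw [c.basic_jac_zero (a := a) (by rw [h, grad_const]), mul_zero]
/-- strong locality -/
theorem act_eq_zero_of_local {f : X → ℝ} {π : Fin k → X → ℝ} {a : Fin k} (ha : Lip (π a)) {t : ℝ}
    (h : ∀ y, f y ≠ 0 → π a y = t) : c.act f π = 0 := by
  refine integral_eq_zero_of_ae ?_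
  filter_upwards [c.grad_eq_zero_of_eq ha t] with w hw
  rcases eq_or_ne (f (c.pt w)) 0 with h0 | h0
  · rw [h0, mul_zero, zero_mul]
    rfl
  · rw [c.basic_jac_zero (hw (h _ h0)), mul_zero]
    rfl

/-! ### operations -/

@[simp] theorem area_zero (x : X) : (zero x k).area = 0 := by
  simp [area_eq, zero]
@[simp] theorem act_zero (x : X) (f : X → ℝ) (π : Fin k → X → ℝ) : (zero x k).act f π = 0 := by
  simp [act, par, zero]
theorem zero_in (x : X) (K : Set X) : (zero x k).In K := fun _ => mapsTo_empty _ _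
@[simp] theorem par_neg : c.neg.par = c.par := rfl
@[simp] theorem area_neg : c.neg.area = c.area := rfl
@[simp] theorem act_neg (f : X → ℝ) (π : Fin k → X → ℝ) : c.neg.act f π = -c.act f π := by
  rw [act, act, ← integral_neg]
  exact integral_congr_ae (Eventually.of_forall fun w => (neg_mul (c.sg w.1) _ ▸ neg_mul _ _ :
    -c.sg w.1 * f (c.pt w) * c.jac π w = -(c.sg w.1 * f (c.pt w) * c.jac π w)))
theorem In.neg {c : Ch X k} {K : Set X} (h : c.In K) : c.neg.In K := h

section push

variable {Y : Type u} [MetricSpace Y] (h : X → Y) (hh : LipschitzWith 1 h)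

@[simp] theorem par_push : (c.push h hh).par = c.par := rfl
@[simp] theorem area_push : (c.push h hh).area = c.area := rfl
@[simp] theorem pt_push (w : ℕ × Euc k) : (c.push h hh).pt w = h (c.pt w) := rfl
theorem grad_push (u : Y → ℝ) : (c.push h hh).grad u = c.grad fun x => u (h x) := rfl
theorem act_push (f : Y → ℝ) (π : Fin k → Y → ℝ) :
    (c.push h hh).act f π = c.act (fun x => f (h x)) fun a x => π a (h x) := rfl
theorem push_in {K : Set X} {K' : Set Y} (hK : c.In K) (hm : MapsTo h K K') :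
    (c.push h hh).In K' := fun i => hm.comp (hK i)
theorem IsCyc.push {c : Ch X k} (hc : c.IsCyc) : (c.push h hh).IsCyc :=
  fun π hπ => hc (fun a x => π a (h x)) fun a => (hπ a).comp hh

end push

section restr

variable [MeasurableSpace X] [BorelSpace X] {A : Set X} (hA : MeasurableSet A)

@[simp] theorem pt_restr : (c.restr A hA).pt = c.pt := rfl
theorem par_restr : (c.restr A hA).par = c.par.restrict (c.pt ⁻¹' A) := by
  refine Measure.ext_of_lintegral _ fun F _ => ?_
  rw [← lintegral_indicator₀ (c.aemeasurable_pt.nullMeasurableSet_preimage hA), lintegral_par, lintegral_par]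
  refine tsum_congr fun i => ?_
  have hm : MeasurableSet (c.E i ∩ c.φ i ⁻¹' A) := (c.restr A hA).meas i
  rw [setLIntegral_congr_fun (c.meas i) (g := (c.E i ∩ c.φ i ⁻¹' A).indicator fun z => F (i, z)) fun z hz => ?_,
    lintegral_indicator hm, Measure.restrict_restrict_of_subset inter_subset_left]
  · rfl
  · by_cases h : c.φ i z ∈ A
    · rw [indicator_of_mem (show (i, z) ∈ c.pt ⁻¹' A from h),
        indicator_of_mem (show z ∈ c.E i ∩ c.φ i ⁻¹' A from ⟨hz, h⟩)]
    · rw [indicator_of_notMem (show (i, z) ∉ c.pt ⁻¹' A from h),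
        indicator_of_notMem (show z ∉ c.E i ∩ c.φ i ⁻¹' A from fun h' => h h'.2)]
theorem area_restr : (c.restr A hA).area = c.par.real (c.pt ⁻¹' A) := by
  rw [area, par_restr, measureReal_restrict_apply_univ]
theorem area_restr_add_compl :
    (c.restr A hA).area + (c.restr Aᶜ hA.compl).area = c.area := by
  rw [area_restr, area_restr, preimage_compl]
  exact measureReal_add_measureReal_compl₀ (c.aemeasurable_pt.nullMeasurableSet_preimage hA)
theorem restr_in : (c.restr A hA).In A := fun _ _ h => h.2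
theorem In.restr {c : Ch X k} {K : Set X} (h : c.In K) : (c.restr A hA).In K :=
  fun i _ hz => h i hz.1
theorem grad_restr {u : X → ℝ} (hu : Lip u) :
    ∀ᵐ w ∂(c.restr A hA).par, (c.restr A hA).grad u w = c.grad u w := by
  have h := ae_restrict_of_ae (s := c.pt ⁻¹' A) (c.ae_hasGradient hu)
  rw [← par_restr c hA] at h
  filter_upwards [h, (c.restr A hA).ae_uniqueDiff] with w h1 h2
  refine (InnerProductSpace.toDual ℝ _).injective ?_
  exact toDual_gradientWithin.trans
    (((hasGradientWithinAt_iff_hasFDerivWithinAt.1 h1).mono inter_subset_left).fderivWithin h2)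
theorem act_restr (f : X → ℝ) {π : Fin k → X → ℝ} (hπ : ∀ a, Lip (π a)) :
    (c.restr A hA).act f π = ∫ w in c.pt ⁻¹' A, c.sg w.1 * f (c.pt w) * c.jac π w ∂c.par := by
  rw [← par_restr c hA]
  refine integral_congr_ae ?_
  filter_upwards [ae_all_iff.2 fun a => c.grad_restr hA (hπ a)] with w h
  simp only [jac_eq, h]
  rfl
theorem act_restr_add_compl {f : X → ℝ} {π : Fin k → X → ℝ} (h : IsTestPair f π) :
    (c.restr A hA).act f π + (c.restr Aᶜ hA.compl).act f π = c.act f π := by
  rw [act_restr _ _ _ h.2.2, act_restr _ _ _ h.2.2, preimage_compl]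
  exact integral_add_compl₀ (c.aemeasurable_pt.nullMeasurableSet_preimage hA) (c.integrable_act h)

end restr

end Ch

end Crest.Agent.R241
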