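import Crest.Agent.R241.Defs

/-!
# Block B: calculus of Lipschitz functions on measurable subsets of `ℝᵏ`.
Helper prefix `calc_`.  Tools: `LipschitzOnWith.extend_real` (McShane), Rademacher
(`LipschitzWith.ae_differentiableAt`, `LipschitzOnWith.ae_differentiableWithinAt`), density points
(`Besicovitch.ae_tendsto_measure_inter_div`), Mathlib `MeasureTheory/Function/Jacobian.lean`.
-/

open MeasureTheory Set Filter Topology
open Crest.GeometryTopology.MetricCurrent
open Crest.GeometryTopology.Submanifold (Euc unitBallVol unitSphereArea)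
open scoped ENNReal NNReal InnerProductSpace

noncomputable section

namespace Crest.Agent.R241

universe u

variable {k : ℕ}

/-- the Jacobian determinant within `E` of a tuple of scalar functions -/
def jacE (E : Set (Euc k)) (g : Fin k → Euc k → ℝ) (z : Euc k) : ℝ :=
  (Matrix.of fun a j => fderivWithin ℝ (g a) E z (EuclideanSpace.single j 1)).det

theorem jacOn_eq {X : Type u} (E : Set (Euc k)) (φ : Euc k → X) (π : Fin k → X → ℝ) :
    jacOn E φ π = jacE E fun a w => π a (φ w) := rfl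

theorem calc_dense (E : Set (Euc k)) :
    ∀ᵐ z ∂volume.restrict E, ∀ v : Euc k, ∀ ε > 0, ∀ᶠ t in 𝓝[>] (0 : ℝ),
      ∃ z' ∈ E, ‖z' - (z + t • v)‖ ≤ ε * t := by
  filter_upwards [Besicovitch.ae_tendsto_measure_inter_div volume E] with z hz v ε hε
  filter_upwards [Measure.eventually_nonempty_inter_smul_of_density_one volume E z hz _
    measurableSet_closedBall (Metric.measure_closedBall_pos volume v hε).ne', self_mem_nhdsWithin] with t ht h0
  obtain ⟨_, h, _, rfl, _, ⟨w, hw, rfl⟩, rfl⟩ := ht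
  refine ⟨_, h, ?_⟩
  rw [add_sub_add_left_eq_sub, ← smul_sub, norm_smul, Real.norm_of_nonneg (le_of_lt h0), mul_comm]
  exact mul_le_mul_of_nonneg_right (mem_closedBall_iff_norm.1 hw) (le_of_lt h0)

theorem calc_cone (E : Set (Euc k)) : ∀ᵐ z ∂volume.restrict E, ∀ v, v ∈ tangentConeAt ℝ E z := by
  filter_upwards [calc_dense E] with z hz v
  rw [Metric.nhds_basis_ball.tangentConeAt_eq_biInter_closure]
  refine mem_iInter₂.2 fun δ hδ => Metric.mem_closure_iff.2 fun ε hε => ?_
  obtain ⟨t, ⟨z', h, h1⟩, h2, h3⟩ := ((hz v _ (half_pos hε)).and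
    (Ioo_mem_nhdsGT (show 0 < δ / (‖v‖ + ε) by positivity))).exists
  have h4 : ‖z' - z - t • v‖ < ε * t := by rw [sub_sub]; nlinarith [mul_pos hε h2]
  refine ⟨t⁻¹ • (z' - z), Set.smul_mem_smul (mem_univ _) ⟨mem_ball_zero_iff.2 ?_, by simpa⟩, ?_⟩
  · have := norm_le_norm_sub_add (z' - z) (t • v)
    rw [norm_smul, Real.norm_of_nonneg h2.le] at this
    rw [lt_div_iff₀ (by positivity)] at h3
    linarith
  · rw [dist_comm, dist_eq_norm, ← inv_smul_smul₀ h2.ne' v, ← smul_sub, norm_smul, norm_inv,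
      Real.norm_of_nonneg h2.le, inv_mul_lt_iff₀ h2, mul_comm]
    exact h4

/-- at a density point the tangent cone is everything -/
theorem ae_uniqueDiffWithinAt {E : Set (Euc k)} (hE : MeasurableSet E) :
    ∀ᵐ z ∂volume.restrict E, UniqueDiffWithinAt ℝ E z := by
  filter_upwards [calc_cone E, ae_restrict_mem hE] with z hz h
  exact ⟨fun v => subset_closure (Submodule.subset_span (hz v)), subset_closure h⟩

/-- at a density point every direction is approximately attained -/
theorem ae_dense_dir {E : Set (Euc k)} (hE : MeasurableSet E) :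
    ∀ᵐ z ∂volume.restrict E, ∀ v : Euc k, ∀ ε > 0, ∀ᶠ t in 𝓝[>] (0 : ℝ),
      ∃ z' ∈ E, ‖z' - (z + t • v)‖ ≤ ε * t := by
  exact calc_dense E

theorem ae_fderivWithin_eq_fderiv {F : Type*} [NormedAddCommGroup F] [NormedSpace ℝ F]
    [FiniteDimensional ℝ F] {E : Set (Euc k)} (hE : MeasurableSet E) {g G : Euc k → F} {L : ℝ≥0}
    (hG : LipschitzWith L G) (h : EqOn g G E) :
    ∀ᵐ z ∂volume.restrict E, DifferentiableAt ℝ G z ∧ HasFDerivWithinAt g (fderiv ℝ G z) E z ∧
      fderivWithin ℝ g E z = fderiv ℝ G z := by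
  filter_upwards [ae_restrict_of_ae hG.ae_differentiableAt, ae_restrict_mem hE, ae_uniqueDiffWithinAt hE]
    with z h1 h2 h3
  have h4 := h1.hasFDerivAt.hasFDerivWithinAt.congr h (h h2)
  exact ⟨h1, h4, h4.fderivWithin h3⟩

theorem ae_norm_fderivWithin_le {F : Type*} [NormedAddCommGroup F] [NormedSpace ℝ F]
    [FiniteDimensional ℝ F] {E : Set (Euc k)} (hE : MeasurableSet E) {g : Euc k → F} {L : ℝ≥0}
    (hg : LipschitzOnWith L g E) :
    ∀ᵐ z ∂volume.restrict E, ‖fderivWithin ℝ g E z‖ ≤ L := by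
  filter_upwards [calc_cone E, ae_restrict_mem hE] with z hz h
  by_cases hd : DifferentiableWithinAt ℝ g E z
  · refine ContinuousLinearMap.opNorm_le_bound _ L.2 fun v => ?_
    obtain ⟨α, l, _, c, d, h1, h2, h3⟩ := exists_fun_of_mem_tangentConeAt (hz v)
    refine le_of_tendsto_of_tendsto (hd.hasFDerivWithinAt.lim h1 h2 h3).norm (h3.norm.const_mul (L : ℝ))
      (h2.mono fun n hn => ?_)
    have := hg.norm_sub_le hn h
    simp only [norm_smul, add_sub_cancel_left] at this ⊢
    rw [mul_left_comm]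
    exact mul_le_mul_of_nonneg_left this (norm_nonneg _)
  · rw [fderivWithin_zero_of_not_differentiableWithinAt hd, norm_zero]
    exact L.2

theorem aemeasurable_fderivWithin {E : Set (Euc k)} (hE : MeasurableSet E) {g : Euc k → ℝ}
    {L : ℝ≥0} (hg : LipschitzOnWith L g E) (v : Euc k) :
    AEMeasurable (fun z => fderivWithin ℝ g E z v) (volume.restrict E) := by
  obtain ⟨G, hG, h⟩ := hg.extend_real
  exact (measurable_fderiv_apply_const ℝ G v).aemeasurable.congr
    ((ae_fderivWithin_eq_fderiv hE hG h).mono fun z hz => by simp only [hz.2.2])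

theorem ae_fderivWithin_mono {F : Type*} [NormedAddCommGroup F] [NormedSpace ℝ F]
    [FiniteDimensional ℝ F] {E E' : Set (Euc k)} (hE : MeasurableSet E) (hE' : MeasurableSet E')
    (hsub : E' ⊆ E) {g : Euc k → F} {L : ℝ≥0} (hg : LipschitzOnWith L g E) :
    ∀ᵐ z ∂volume.restrict E', fderivWithin ℝ g E' z = fderivWithin ℝ g E z := by
  obtain ⟨G, hG, h⟩ := hg.extend_finite_dimension
  filter_upwards [ae_fderivWithin_eq_fderiv hE' hG (h.mono hsub),
    ae_restrict_of_ae_restrict_of_subset hsub (ae_fderivWithin_eq_fderiv hE hG h)] with z h1 h2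
  rw [h1.2.2, h2.2.2]

/-- the derivative vanishes a.e. on a level set -/
theorem ae_fderivWithin_eq_zero {F : Type*} [NormedAddCommGroup F] [NormedSpace ℝ F]
    [FiniteDimensional ℝ F] {E : Set (Euc k)} (hE : MeasurableSet E) {g : Euc k → F} {L : ℝ≥0}
    (hg : LipschitzOnWith L g E) (c : F) :
    ∀ᵐ z ∂volume.restrict E, g z = c → fderivWithin ℝ g E z = 0 := by
  obtain ⟨G, hG, h⟩ := hg.extend_finite_dimension
  have hA : MeasurableSet (E ∩ G ⁻¹' {c}) :=
    hE.inter (isClosed_singleton.preimage hG.continuous).measurableSet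
  filter_upwards [ae_restrict_of_ae ((ae_restrict_iff' hA).1 ((ae_fderivWithin_mono hE hA inter_subset_left hg).and
    (ae_fderivWithin_eq_fderiv (g := g) hA (LipschitzWith.const c) fun z hz => (h hz.1).trans hz.2))),
    ae_restrict_mem hE] with z h1 h2 h3
  obtain ⟨h4, -, -, h5⟩ := h1 ⟨h2, (h h2).symm.trans h3⟩
  rw [← h4, h5, fderiv_fun_const, Pi.zero_apply]

/-- Hadamard's inequality -/
theorem abs_det_le_prod (v : Fin k → Euc k) :
    |(Matrix.of fun a j => v a j).det| ≤ ∏ a, ‖v a‖ := by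
  have : Fact (Module.finrank ℝ (Euc k) = k) := ⟨by simp⟩
  have h := (EuclideanSpace.basisFun (Fin k) ℝ).toBasis.orientation.abs_volumeForm_apply_le v
  rw [Orientation.volumeForm_robust' _ (EuclideanSpace.basisFun (Fin k) ℝ),
    Module.Basis.det_apply, ← Matrix.det_transpose] at h
  convert h using 3
  ext a j
  simp [Module.Basis.toMatrix_apply]

theorem ae_abs_jacE_le {E : Set (Euc k)} (hE : MeasurableSet E) {g : Fin k → Euc k → ℝ}
    {L : Fin k → ℝ≥0} (hg : ∀ a, LipschitzOnWith (L a) (g a) E) :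
    ∀ᵐ z ∂volume.restrict E, |jacE E g z| ≤ ∏ a, (L a : ℝ) := by
  filter_upwards [ae_all_iff.2 fun a => ae_norm_fderivWithin_le hE (hg a)] with z hz
  have h := abs_det_le_prod fun a =>
    (InnerProductSpace.toDual ℝ (Euc k)).symm (fderivWithin ℝ (g a) E z)
  have e : jacE E g z = (Matrix.of fun a j =>
      (InnerProductSpace.toDual ℝ (Euc k)).symm (fderivWithin ℝ (g a) E z) j).det := by
    unfold jacE
    congr 1
    ext a j
    rw [Matrix.of_apply, Matrix.of_apply, ← InnerProductSpace.toDual_symm_apply,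
      EuclideanSpace.inner_single_right]
    simp
  rw [e]
  refine h.trans (Finset.prod_le_prod (fun a _ => norm_nonneg _) fun a _ => ?_)
  rw [LinearIsometryEquiv.norm_map]
  exact hz a

theorem aemeasurable_jacE {E : Set (Euc k)} (hE : MeasurableSet E) {g : Fin k → Euc k → ℝ}
    {L : Fin k → ℝ≥0} (hg : ∀ a, LipschitzOnWith (L a) (g a) E) :
    AEMeasurable (jacE E g) (volume.restrict E) := by
  unfold jacE
  simp only [Matrix.det_apply', Matrix.of_apply]
  exact Finset.aemeasurable_fun_sum _ fun π _ => AEMeasurable.const_mul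
    (Finset.aemeasurable_fun_prod _ fun j _ => aemeasurable_fderivWithin hE (hg _) _) _

/-- Lipschitz images: `vol (ψ s) ≤ L ^ k vol s` (compare with Hausdorff measure) -/
theorem volume_image_le {s : Set (Euc k)} {ψ : Euc k → Euc k} {L : ℝ≥0}
    (hψ : LipschitzOnWith L ψ s) : volume (ψ '' s) ≤ (L : ℝ≥0∞) ^ k * volume s := by
  have : (Measure.hausdorffMeasure (k : ℝ) : Measure (Euc k)).IsAddHaarMeasure := by
    simpa using MeasureTheory.isAddHaarMeasure_hausdorffMeasure (E := Euc k)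
  have e := Measure.isAddLeftInvariant_eq_smul (volume : Measure (Euc k))
    (Measure.hausdorffMeasure (k : ℝ))
  have h := hψ.hausdorffMeasure_image_le (d := k) (Nat.cast_nonneg k)
  rw [ENNReal.rpow_natCast] at h
  generalize Measure.addHaarScalarFactor (volume : Measure (Euc k))
    (Measure.hausdorffMeasure (k : ℝ)) = c at e
  rw [e, Measure.smul_apply, Measure.smul_apply, ENNReal.smul_def, ENNReal.smul_def, smul_eq_mul,
    smul_eq_mul, mul_left_comm]
  gcongr

theorem aemeasurable_det_fderivWithin {E : Set (Euc k)} (hE : MeasurableSet E)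
    {ψ : Euc k → Euc k} {L : ℝ≥0} (hψ : LipschitzOnWith L ψ E) :
    AEMeasurable (fun z => (fderivWithin ℝ ψ E z).det) (volume.restrict E) := by
  obtain ⟨G, hG, h⟩ := hψ.extend_finite_dimension
  refine (ContinuousLinearMap.continuous_det.measurable.comp
    (measurable_fderiv ℝ G)).aemeasurable.congr ?_
  filter_upwards [ae_fderivWithin_eq_fderiv hE hG h] with z hz
  rw [hz.2.2]
  rfl

theorem calc_c_good {E : Set (Euc k)} (hE : MeasurableSet E) {ψ : Euc k → Euc k}
    {L : ℝ≥0} (hψ : LipschitzOnWith L ψ E) : ∃ E' ⊆ E, MeasurableSet E' ∧ E =ᵐ[volume] E' ∧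
      ψ '' E =ᵐ[volume] ψ '' E' ∧ ∀ z ∈ E', HasFDerivWithinAt ψ (fderivWithin ℝ ψ E z) E' z := by
  obtain ⟨N, h1, h2, h3⟩ := exists_measurable_superset_of_null
    ((ae_restrict_iff' hE).1 (hψ.ae_differentiableWithinAt (μ := volume) hE))
  refine ⟨E \ N, sdiff_subset, hE.diff h2, (sdiff_null_ae_eq_self h3).symm, ?_, fun z hz => ?_⟩
  · refine ae_eq_set.2 ⟨measure_mono_null (t := ψ '' (E ∩ N)) ?_ ?_, ?_⟩
    · rintro _ ⟨⟨z, hz, rfl⟩, h⟩
      exact ⟨z, ⟨hz, by_contra fun hn => h ⟨z, ⟨hz, hn⟩, rfl⟩⟩, rfl⟩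
    · refine nonpos_iff_eq_zero.1 ((volume_image_le (hψ.mono inter_subset_left)).trans_eq ?_)
      rw [measure_mono_null inter_subset_right h3, mul_zero]
    · rw [sdiff_eq_empty.2 (image_mono sdiff_subset), measure_empty]
  · have : z ∈ E → DifferentiableWithinAt ℝ ψ E z := by_contra fun h => hz.2 (h1 h)
    exact (this hz.1).hasFDerivWithinAt.mono sdiff_subset

/-- area formula for injective Lipschitz maps (remove the null set of bad points) -/
theorem lintegral_image_lip {E : Set (Euc k)} (hE : MeasurableSet E) {ψ : Euc k → Euc k}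
    {L : ℝ≥0} (hψ : LipschitzOnWith L ψ E) (hinj : InjOn ψ E) (ρ : Euc k → ℝ≥0∞) :
    ∫⁻ z in ψ '' E, ρ z = ∫⁻ z in E, ENNReal.ofReal |(fderivWithin ℝ ψ E z).det| * ρ (ψ z) := by
  obtain ⟨E', h1, h2, h3, h4, h5⟩ := calc_c_good hE hψ
  rw [setLIntegral_congr h3, setLIntegral_congr h4]
  exact lintegral_image_eq_lintegral_abs_det_fderiv_mul volume h2 h5 (hinj.mono h1) ρ

theorem integral_image_lip {E : Set (Euc k)} (hE : MeasurableSet E) {ψ : Euc k → Euc k}
    {L : ℝ≥0} (hψ : LipschitzOnWith L ψ E) (hinj : InjOn ψ E) (ρ : Euc k → ℝ) :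
    ∫ z in ψ '' E, ρ z = ∫ z in E, |(fderivWithin ℝ ψ E z).det| * ρ (ψ z) := by
  obtain ⟨E', h1, h2, h3, h4, h5⟩ := calc_c_good hE hψ
  rw [setIntegral_congr_set h3, setIntegral_congr_set h4]
  exact integral_image_eq_integral_abs_det_fderiv_smul volume h2 h5 (hinj.mono h1) ρ

theorem calc_c_pull {E : Set (Euc k)} (hE : MeasurableSet E) {ψ : Euc k → Euc k}
    {L : ℝ≥0} (hψ : LipschitzOnWith L ψ E) (hinj : InjOn ψ E) {P : Euc k → Prop}
    (h : ∀ᵐ y ∂volume.restrict (ψ '' E), P y) :
    ∀ᵐ z ∂volume.restrict E, (fderivWithin ℝ ψ E z).det ≠ 0 → P (ψ z) := by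
  obtain ⟨N, h1, h2, h3⟩ := exists_measurable_superset_of_null h
  have h4 := lintegral_image_lip hE hψ hinj (N.indicator 1)
  rw [lintegral_indicator_one h2, h3, eq_comm] at h4
  filter_upwards [(lintegral_eq_zero_iff' ((aemeasurable_det_fderivWithin hE hψ).abs.ennreal_ofReal.mul
    ((measurable_one.indicator h2).comp_aemeasurable (hψ.continuousOn.aemeasurable hE)))).1 h4] with z hz h0
  by_contra hP
  simp [indicator_of_mem (h1 hP), h0] at hz

theorem calc_c_det (B : Fin k → Euc k →L[ℝ] ℝ) (A : Euc k →L[ℝ] Euc k) :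
    (Matrix.of fun a j => B a (A (EuclideanSpace.single j 1))).det =
      (Matrix.of fun a j => B a (EuclideanSpace.single j 1)).det * A.det := by
  rw [ContinuousLinearMap.det, ← LinearMap.det_toMatrix (EuclideanSpace.basisFun (Fin k) ℝ).toBasis,
    ← Matrix.det_mul]
  congr 1
  ext a j
  rw [Matrix.of_apply, ← (EuclideanSpace.basisFun (Fin k) ℝ).sum_repr (A _), map_sum, Matrix.mul_apply]
  simp [LinearMap.toMatrix_apply, mul_comm]

/-- change of variables for chart actions: chain rule + area formula; where `det Dψ ≠ 0` null sets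
pull back to null sets (`lintegral_image_lip` with an indicator), elsewhere both integrands vanish. -/
theorem integral_jacE_image {E : Set (Euc k)} (hE : MeasurableSet E) {ψ : Euc k → Euc k}
    {L : ℝ≥0} (hψ : LipschitzOnWith L ψ E) (hinj : InjOn ψ E) {g : Fin k → Euc k → ℝ}
    {K : Fin k → ℝ≥0} (hg : ∀ a, LipschitzOnWith (K a) (g a) (ψ '' E)) (ρ : Euc k → ℝ) :
    ∫ z in ψ '' E, ρ z * jacE (ψ '' E) g z
      = ∫ z in E, ρ (ψ z) * (SignType.sign (fderivWithin ℝ ψ E z).det : ℝ)
          * jacE E (fun a w => g a (ψ w)) z := by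
  have hI : MeasurableSet (ψ '' E) := hE.image_of_continuousOn_injOn hψ.continuousOn hinj
  have h1 : ∀ᵐ y ∂volume.restrict (ψ '' E), ∀ a, DifferentiableWithinAt ℝ (g a) (ψ '' E) y :=
    ae_all_iff.2 fun a => (hg a).ae_differentiableWithinAt hI
  rw [integral_image_lip hE hψ hinj]
  refine integral_congr_ae ?_
  filter_upwards [calc_c_pull hE hψ hinj h1, hψ.ae_differentiableWithinAt (μ := volume) hE,
    ae_uniqueDiffWithinAt hE] with z e1 e2 e3
  by_cases h0 : (fderivWithin ℝ ψ E z).det = 0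
  · simp [h0]
  have e4 : jacE E (fun a w => g a (ψ w)) z = jacE (ψ '' E) g (ψ z) * (fderivWithin ℝ ψ E z).det := by
    rw [jacE, jacE, ← calc_c_det]
    congr 2
    funext a j
    rw [fderivWithin_fun_comp z (e1 h0 a) e2 (mapsTo_image ψ E) e3]
    rfl
  rw [e4, ← sign_mul_self]
  ring

end Crest.Agent.R241
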