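import Crest.Agent.R241.Trig

/-!
# The isoperimetric profile `Psi` and the constants `om`, `sph`.  Helper prefix `prof_`.
-/

open MeasureTheory Set Filter Topology
open Crest.GeometryTopology.MetricCurrent
open Crest.GeometryTopology.Submanifold (Euc unitBallVol unitSphereArea)
open scoped ENNReal NNReal InnerProductSpace

noncomputable section

namespace Crest.Agent.R241

universe u

variable {σ : ℝ} {n : ℕ}

theorem om_pos (n : ℕ) : 0 < om n := by
  exact ENNReal.toReal_pos (Metric.measure_ball_pos _ _ one_pos).ne' measure_ball_lt_top.ne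
theorem sph_eq (n : ℕ) : sph n = (n + 1) * om (n + 1) := by
  simp [sph, om, unitSphereArea]
theorem sph_pos (n : ℕ) : 0 < sph n := by
  rw [sph_eq]
  have := om_pos (n + 1)
  positivity
theorem om_one : om 1 = 2 := by
  rw [om, unitBallVol, InnerProductSpace.volume_ball_of_dim_odd (k := 0) (by simp)]
  simp
theorem om_two : om 2 = Real.pi := by
  rw [om, unitBallVol, EuclideanSpace.volume_ball_fin_two]
  simp [Real.pi_pos.le]
theorem sph_one : sph 1 = 2 * Real.pi := by
  rw [sph_eq, om_two]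
  norm_num
theorem sph_two : sph 2 = 4 * Real.pi := by
  rw [sph_eq, om, unitBallVol, EuclideanSpace.volume_ball_fin_three, ENNReal.toReal_mul,
    ENNReal.toReal_ofReal (by positivity)]
  simp only [ENNReal.ofReal_one, one_pow, ENNReal.toReal_one]
  push_cast
  ring
/-- `EuclideanSpace.volume_ball` -/
theorem om_eq_Gamma (n : ℕ) : om n = √Real.pi ^ n / Real.Gamma (n / 2 + 1) := by
  rw [om, unitBallVol]
  rcases n with _ | n
  · rw [volume_euclideanSpace_eq_dirac]
    simp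
  · rw [EuclideanSpace.volume_ball, Fintype.card_fin, ENNReal.toReal_mul,
      ENNReal.toReal_ofReal (by positivity)]
    simp
theorem volume_ball_eq (n : ℕ) (x : Euc n) {r : ℝ} (hr : 0 < r) :
    volume (Metric.ball x r) = ENNReal.ofReal (om n * r ^ n) := by
  rw [Measure.addHaar_ball_of_pos _ _ hr, finrank_euclideanSpace_fin, mul_comm (om n),
    ENNReal.ofReal_mul (by positivity), om, unitBallVol, ENNReal.ofReal_toReal measure_ball_lt_top.ne]

theorem psi_nonneg (σ : ℝ) (n : ℕ) {a : ℝ} (ha : 0 ≤ a) : 0 ≤ psi σ n a := by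
  unfold psi
  positivity
theorem psi_pos (hσ : 0 ≤ σ) (hn : n ≠ 0) {a : ℝ} (ha : 0 < a) : 0 < psi σ n a := by
  have := sph_pos n
  unfold psi
  positivity
theorem continuousOn_psi (hσ : 0 ≤ σ) (hn : n ≠ 0) : ContinuousOn (psi σ n) (Ici 0) := by
  have := sph_pos n
  have h1 : ∀ p : ℝ, 0 ≤ p → ContinuousOn (fun a : ℝ => a ^ p) (Ici 0) := fun p hp =>
    (Real.continuous_rpow_const hp).continuousOn
  refine (h1 _ (by positivity)).div (continuousOn_const.mul
    ((continuousOn_const.mul (h1 _ (by positivity))).add continuousOn_const).sqrt) fun a ha => ?_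
  have ha : 0 ≤ a := ha
  positivity
theorem monotoneOn_psi (hσ : 0 ≤ σ) (hn : n ≠ 0) : MonotoneOn (psi σ n) (Ici 0) := by
  intro a ha b hb hab
  have ha : 0 ≤ a := ha
  have hb : 0 ≤ b := hb
  have hS : 0 < sph n ^ (2 / (n : ℝ)) := Real.rpow_pos_of_pos (sph_pos n) _
  have h1 : ∀ c : ℝ, 0 ≤ c → c ^ (2 / (n : ℝ)) = (c ^ (1 / (n : ℝ))) ^ 2 := fun c hc => by
    rw [← Real.rpow_natCast, ← Real.rpow_mul hc]
    congr 1
    push_cast
    ring
  have h2 : a ^ (1 / (n : ℝ)) ≤ b ^ (1 / (n : ℝ)) := Real.rpow_le_rpow ha hab (by positivity)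
  have h3 : 0 ≤ a ^ (1 / (n : ℝ)) := by positivity
  unfold psi
  rw [h1 a ha, h1 b hb]
  generalize a ^ (1 / (n : ℝ)) = u at *
  generalize b ^ (1 / (n : ℝ)) = v at *
  generalize sph n ^ (2 / (n : ℝ)) = S at *
  have hv : 0 ≤ v := h3.trans h2
  rw [div_le_div_iff₀ (by positivity) (by positivity), mul_left_comm, mul_left_comm v]
  refine mul_le_mul_of_nonneg_left (le_of_sq_le_sq ?_ (by positivity)) (by positivity)
  rw [mul_pow, mul_pow, Real.sq_sqrt (by positivity), Real.sq_sqrt (by positivity)]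
  nlinarith [mul_le_mul_of_nonneg_right (pow_le_pow_left₀ h3 h2 2) hS.le]
/-- with `Λ = 1 / psi`: `(Λ / n)² - σ = (s_n / A) ^ (2 / n)` -/
theorem psi_inv_sq (hσ : 0 ≤ σ) (hn : n ≠ 0) {A : ℝ} (hA : 0 < A) :
    ((psi σ n A)⁻¹ / n) ^ 2 - σ = (sph n / A) ^ (2 / (n : ℝ)) := by
  have hs := sph_pos n
  have hn' : (n : ℝ) ≠ 0 := Nat.cast_ne_zero.2 hn
  have h1 : A ^ (2 / (n : ℝ)) = (A ^ (1 / (n : ℝ))) ^ 2 := by
    rw [← Real.rpow_natCast, ← Real.rpow_mul hA.le]
    congr 1
    push_cast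
    ring
  have h3 : 0 < A ^ (1 / (n : ℝ)) := by positivity
  unfold psi
  rw [Real.div_rpow hs.le hA.le, inv_div, div_right_comm, mul_div_cancel_left₀ _ hn', div_pow,
    Real.sq_sqrt (by positivity), h1]
  field_simp
  ring
@[simp] theorem Psi_zero (σ : ℝ) (n : ℕ) : Psi σ n 0 = 0 := by simp [Psi]
theorem prof_ii (hσ : 0 ≤ σ) (hn : n ≠ 0) {A : ℝ} (hA : 0 ≤ A) :
    IntervalIntegrable (psi σ n) volume 0 A := by
  refine ((continuousOn_psi hσ hn).mono ?_).intervalIntegrable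
  rw [uIcc_of_le hA]
  exact Icc_subset_Ici_self
theorem hasDerivAt_Psi (hσ : 0 ≤ σ) (hn : n ≠ 0) {A : ℝ} (hA : 0 < A) :
    HasDerivAt (Psi σ n) (psi σ n A) A := by
  have hc : ContinuousOn (psi σ n) (Ioi 0) := (continuousOn_psi hσ hn).mono Ioi_subset_Ici_self
  exact intervalIntegral.integral_hasDerivAt_right (prof_ii hσ hn hA.le)
    (hc.stronglyMeasurableAtFilter isOpen_Ioi A hA) (hc.continuousAt (Ioi_mem_nhds hA))
theorem continuousOn_Psi (hσ : 0 ≤ σ) (hn : n ≠ 0) : ContinuousOn (Psi σ n) (Ici 0) := by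
  intro A hA
  have hA : (0 : ℝ) ≤ A := hA
  have h := intervalIntegral.continuousOn_primitive_interval' (a := 0)
    (prof_ii hσ hn (by linarith : (0 : ℝ) ≤ A + 1)) left_mem_uIcc
  rw [uIcc_of_le (by linarith)] at h
  refine (h A ⟨hA, by linarith⟩).mono_of_mem_nhdsWithin ?_
  exact mem_of_superset (inter_mem_nhdsWithin (Ici 0) (Iic_mem_nhds (by linarith : A < A + 1)))
    fun x hx => hx
theorem strictMonoOn_Psi (hσ : 0 ≤ σ) (hn : n ≠ 0) : StrictMonoOn (Psi σ n) (Ici 0) := by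
  refine strictMonoOn_of_deriv_pos (convex_Ici 0) (continuousOn_Psi hσ hn) fun x hx => ?_
  rw [interior_Ici] at hx
  rw [(hasDerivAt_Psi hσ hn hx).deriv]
  exact psi_pos hσ hn hx
theorem Psi_nonneg (hσ : 0 ≤ σ) (hn : n ≠ 0) {A : ℝ} (hA : 0 ≤ A) : 0 ≤ Psi σ n A := by
  exact intervalIntegral.integral_nonneg hA fun u hu => psi_nonneg σ n hu.1
/-- convexity with `Psi 0 = 0`: `Psi a ≤ Psi A - (Psi A / A) (A - a)` -/
theorem Psi_slope (hσ : 0 ≤ σ) (hn : n ≠ 0) {A : ℝ} (hA : 0 < A) :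
    ∀ a ∈ Icc 0 A, Psi σ n a ≤ Psi σ n A - Psi σ n A / A * (A - a) := by
  have hc : ConvexOn ℝ (Ici 0) (Psi σ n) := by
    refine MonotoneOn.convexOn_of_deriv (convex_Ici 0) (continuousOn_Psi hσ hn) ?_ ?_
    · rw [interior_Ici]
      exact fun x hx => (hasDerivAt_Psi hσ hn hx).differentiableAt.differentiableWithinAt
    · rw [interior_Ici]
      intro x hx y hy hxy
      rw [(hasDerivAt_Psi hσ hn hx).deriv, (hasDerivAt_Psi hσ hn hy).deriv]
      exact monotoneOn_psi hσ hn (Ioi_subset_Ici_self hx) (Ioi_subset_Ici_self hy) hxy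
  intro a ha
  have h := hc.2 (mem_Ici.2 le_rfl) (mem_Ici.2 hA.le)
    (sub_nonneg.2 ((div_le_one hA).2 ha.2)) (div_nonneg ha.1 hA.le) (by ring)
  simp only [smul_eq_mul, mul_zero, zero_add, Psi_zero, div_mul_cancel₀ _ hA.ne'] at h
  refine h.trans_eq ?_
  field_simp
  ring
theorem Psi_zero_left (hn : n ≠ 0) {A : ℝ} (hA : 0 ≤ A) :
    Psi 0 n A = 1 / ((n + 1 : ℝ) * sph n ^ (1 / (n : ℝ))) * A ^ ((n + 1 : ℝ) / n) := by
  have hn' : (0 : ℝ) < n := by positivity
  have hs := sph_pos n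
  have e : √(sph n ^ (2 / (n : ℝ))) = sph n ^ (1 / (n : ℝ)) := by
    rw [Real.sqrt_eq_rpow, ← Real.rpow_mul hs.le]
    congr 1
    field_simp
  have hp : 0 < sph n ^ (1 / (n : ℝ)) := by positivity
  simp only [Psi, psi, zero_mul, zero_add, e, intervalIntegral.integral_div]
  rw [integral_rpow (Or.inl (lt_of_lt_of_le (by norm_num) (by positivity : (0 : ℝ) ≤ 1 / n))),
    Real.zero_rpow (by positivity), show (1 / (n : ℝ) + 1) = (n + 1) / n by field_simp; ring]
  field_simp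
  ring
theorem Psi_le_Psi_zero (hσ : 0 ≤ σ) (hn : n ≠ 0) {A : ℝ} (hA : 0 ≤ A) :
    Psi σ n A ≤ Psi 0 n A := by
  refine intervalIntegral.integral_mono_on hA (prof_ii hσ hn hA) (prof_ii le_rfl hn hA)
    fun a ha => ?_
  have hn' : (0 : ℝ) < n := by positivity
  have hs := sph_pos n
  have ha0 := ha.1
  unfold psi
  rw [zero_mul, zero_add]
  refine div_le_div_of_nonneg_left (by positivity) (by positivity) ?_
  refine mul_le_mul_of_nonneg_left (Real.sqrt_le_sqrt ?_) hn'.le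
  exact le_add_of_nonneg_left (by positivity)
/-- both sides vanish at `r = 0` and have the same derivative `s_n sn^n` for `r > 0` -/
theorem Psi_model {κ : ℝ} (hκ : κ ≤ 0) (hn : n ≠ 0) {r : ℝ} (hr : 0 ≤ r) :
    Psi (-κ) n (Crest.GeometryTopology.Submanifold.modelArea (n + 1) κ r)
      = Crest.GeometryTopology.Submanifold.modelVolume (n + 1) κ r := by
  have hσ : 0 ≤ -κ := neg_nonneg.2 hκ
  simp only [Crest.GeometryTopology.Submanifold.modelArea,
    Crest.GeometryTopology.Submanifold.modelVolume, snk_eq, Nat.add_sub_cancel]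
  generalize -κ = σ at hσ
  change Psi σ n (sph n * sn σ r ^ n) = sph n * ∫ t in (0 : ℝ)..r, sn σ t ^ n
  have hn' : (0 : ℝ) < n := by positivity
  have hs := sph_pos n
  have hcs := continuous_sn σ
  have h := intervalIntegral.integral_eq_sub_of_hasDerivAt_of_le
    (f := fun t => Psi σ n (sph n * sn σ t ^ n)) (f' := fun t => sph n * sn σ t ^ n) hr
    ((continuousOn_Psi hσ hn).comp (by fun_prop) fun t ht =>
      mul_nonneg hs.le (pow_nonneg (sn_nonneg hσ ht.1) _))
    (fun t ht => ?_) (Continuous.intervalIntegrable (by fun_prop) _ _)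
  · rw [intervalIntegral.integral_const_mul] at h
    rw [h]
    simp [hn]
  have ht0 := sn_pos hσ ht.1
  have hm := md_nonneg hσ t
  have h1 : HasDerivAt (fun t => sph n * sn σ t ^ n)
      (sph n * (n * sn σ t ^ (n - 1) * (1 + σ * md σ t))) t :=
    ((hasDerivAt_sn hσ t).pow n).const_mul _
  have h2 := (hasDerivAt_Psi hσ hn (A := sph n * sn σ t ^ n) (by positivity)).comp t h1
  refine h2.congr_deriv ?_
  have e1 : (sph n * sn σ t ^ n) ^ (1 / (n : ℝ)) = sph n ^ (1 / (n : ℝ)) * sn σ t := by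
    rw [Real.mul_rpow hs.le (by positivity), one_div, Real.pow_rpow_inv_natCast ht0.le hn]
  have e0 : ∀ x : ℝ, 0 ≤ x → x ^ (2 / (n : ℝ)) = (x ^ (1 / (n : ℝ))) ^ 2 := by
    intro x hx
    rw [← Real.rpow_natCast, ← Real.rpow_mul hx]
    congr 1
    push_cast
    ring
  have hp : 0 < sph n ^ (1 / (n : ℝ)) := by positivity
  have e2 : √(σ * (sph n * sn σ t ^ n) ^ (2 / (n : ℝ)) + sph n ^ (2 / (n : ℝ))) =
      sph n ^ (1 / (n : ℝ)) * (1 + σ * md σ t) := by
    rw [e0 _ (by positivity), e0 _ hs.le, e1, Real.sqrt_eq_iff_mul_self_eq (by positivity)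
      (by positivity), mul_pow, sn_sq hσ]
    ring
  have hq : 0 < 1 + σ * md σ t := by positivity
  rw [psi, e1, e2]
  obtain ⟨k, rfl⟩ := Nat.exists_eq_succ_of_ne_zero hn
  simp only [Nat.succ_eq_add_one, Nat.add_sub_cancel]
  field_simp
  ring
theorem modelArea_zero (n : ℕ) (r : ℝ) :
    Crest.GeometryTopology.Submanifold.modelArea (n + 1) 0 r = sph n * r ^ n := by
  simp [Crest.GeometryTopology.Submanifold.modelArea, Crest.GeometryTopology.Submanifold.snk, sph]
theorem modelVolume_zero (n : ℕ) (r : ℝ) :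
    Crest.GeometryTopology.Submanifold.modelVolume (n + 1) 0 r = om (n + 1) * r ^ (n + 1) := by
  have h : (n + 1 : ℝ) ≠ 0 := by positivity
  simp only [Crest.GeometryTopology.Submanifold.modelVolume, Crest.GeometryTopology.Submanifold.snk,
    if_true, Nat.add_sub_cancel, integral_pow, unitSphereArea, om]
  push_cast
  field_simp
  ring
theorem modelArea_nonneg (n : ℕ) {κ : ℝ} (hκ : κ ≤ 0) {r : ℝ} (hr : 0 ≤ r) :
    0 ≤ Crest.GeometryTopology.Submanifold.modelArea (n + 1) κ r := by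
  rw [Crest.GeometryTopology.Submanifold.modelArea, snk_eq]
  exact mul_nonneg (sph_pos n).le (pow_nonneg (sn_nonneg (neg_nonneg.2 hκ) hr) _)
theorem modelVolume_nonneg (n : ℕ) {κ : ℝ} (hκ : κ ≤ 0) {r : ℝ} (hr : 0 ≤ r) :
    0 ≤ Crest.GeometryTopology.Submanifold.modelVolume (n + 1) κ r := by
  rw [Crest.GeometryTopology.Submanifold.modelVolume]
  refine mul_nonneg (sph_pos n).le (intervalIntegral.integral_nonneg hr fun t ht => ?_)
  rw [snk_eq]
  exact pow_nonneg (sn_nonneg (neg_nonneg.2 hκ) ht.1) _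

end Crest.Agent.R241
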