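import Crest.Agent.R241.HypA
import Crest.Agent.R241.Prof

/-!
# Block G0: elementary consequences of the first variation inequality; the case `n = 2`.
Helper prefix `core0_`.  See `notes241/R241.md`, section G0.
-/

open MeasureTheory Set Filter Topology
open Crest.GeometryTopology.MetricCurrent
open Crest.GeometryTopology.Submanifold (Euc unitBallVol unitSphereArea)
open scoped ENNReal NNReal InnerProductSpace

noncomputable section

namespace Crest.Agent.R241

universe u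

variable {X : Type u} [MetricSpace X] [CompactSpace X] [MeasurableSpace X] [BorelSpace X]
  {Ω : Type u} [MeasurableSpace Ω] {σ Λ : ℝ} {n : ℕ}

namespace VS

variable (V : VS σ Λ n X Ω)

theorem measurable_kap (x : X) : Measurable fun o => kap σ x (V.p o) := by
  exact ((continuous_kap σ).comp (Continuous.prodMk_right x)).measurable.comp V.meas_p

theorem measurable_uncurry_ξ : Measurable fun q : X × Ω => V.ξ q.2 q.1 := by
  obtain ⟨C, hC⟩ := V.lip_ξ
  exact measurable_uncurry_of_continuous_of_measurable (u := fun x o => V.ξ o x)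
    (fun o => (hC o).continuous) V.meas_ξ

theorem norm_ξ_sq_le (hσ : 0 ≤ σ) (o : Ω) (x : X) :
    ‖V.ξ o x‖ ^ 2 ≤ 2 * kap σ x (V.p o) + σ * kap σ x (V.p o) ^ 2 := by
  exact (pow_le_pow_left₀ (norm_nonneg _) (V.bound o x) 2).trans_eq (sn_sq hσ _)

/-- `fv` for `f = φ (κ_x)` (take `m = 1`, `Φ t = φ' (t 0)` where `φ'` is a `C¹` function on `ℝ`
agreeing with `φ` near `[0, max κ]`; here `φ` is already `C¹` on `ℝ`). -/
theorem fv_rad (φ : ℝ → ℝ) (hφ : ContDiff ℝ 1 φ) (x : X) (h0 : ∀ y, 0 ≤ φ (kap σ x y)) :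
    ∫ o, (n * (1 + σ * kap σ x (V.p o)) * φ (kap σ x (V.p o))
        + deriv φ (kap σ x (V.p o)) * ‖V.ξ o x‖ ^ 2) ∂V.ν
      ≤ Λ * ∫ o, φ (kap σ x (V.p o)) * √(sn σ (dist x (V.p o)) ^ 2 - ‖V.ξ o x‖ ^ 2) ∂V.ν := by
  have h := V.fv 1 (fun _ => x) (fun t => φ (t 0)) (hφ.comp (contDiff_apply ℝ ℝ 0)) h0 x
  have e : ∀ t : Fin 1 → ℝ, fderiv ℝ (fun t : Fin 1 → ℝ => φ (t 0)) t (Pi.single 0 1) = deriv φ (t 0) := fun t => by
    rw [show fderiv ℝ (fun t : Fin 1 → ℝ => φ (t 0)) t = _ from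
      ((hφ.differentiable one_ne_zero (t 0)).hasDerivAt.comp_hasFDerivAt t (hasFDerivAt_apply 0 t)).fderiv]
    simp
  simpa only [gfun, gvec, Fin.sum_univ_one, e, real_inner_smul_left, real_inner_self_eq_norm_sq] using h

/-- the same for `φ` only `C¹` on an open half line `(-e, ∞)` (cut off) -/
theorem fv_rad' (hσ : 0 ≤ σ) (φ : ℝ → ℝ) {e : ℝ} (he : 0 < e) (hφ : ContDiffOn ℝ 1 φ (Ioi (-e)))
    (x : X) (h0 : ∀ y, 0 ≤ φ (kap σ x y)) :
    ∫ o, (n * (1 + σ * kap σ x (V.p o)) * φ (kap σ x (V.p o))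
        + deriv φ (kap σ x (V.p o)) * ‖V.ξ o x‖ ^ 2) ∂V.ν
      ≤ Λ * ∫ o, φ (kap σ x (V.p o)) * √(sn σ (dist x (V.p o)) ^ 2 - ‖V.ξ o x‖ ^ 2) ∂V.ν := by
  let χ : ℝ → ℝ := fun t => Real.smoothTransition (3 + 4 / e * t)
  have h1 : ∀ t, -(e / 2) < t → χ t = 1 := fun t ht => Real.smoothTransition.one_of_one_le (by
    have := mul_lt_mul_of_pos_left ht (by positivity : 0 < 4 / e)
    rw [show 4 / e * -(e / 2) = -2 by field_simp; norm_num] at this
    linarith)
  have h2 : ∀ t, t < -(3 / 4 * e) → χ t = 0 := fun t ht => Real.smoothTransition.zero_of_nonpos (by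
    have := mul_lt_mul_of_pos_left ht (by positivity : 0 < 4 / e)
    rw [show 4 / e * -(3 / 4 * e) = -3 by field_simp] at this
    linarith)
  have h3 : ContDiff ℝ 1 fun t => χ t * φ t := contDiff_iff_contDiffAt.2 fun t => by
    rcases lt_or_ge (-e) t with ht | ht
    · exact (Real.smoothTransition.contDiff.comp (by fun_prop)).contDiffAt.mul
        (hφ.contDiffAt (Ioi_mem_nhds ht))
    · refine (contDiffAt_const (c := 0)).congr_of_eventuallyEq ?_
      filter_upwards [Iio_mem_nhds (show t < -(3 / 4 * e) by linarith)] with s hs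
      rw [h2 s hs, zero_mul]
  have h4 : ∀ y, (fun t => χ t * φ t) =ᶠ[𝓝 (kap σ x y)] φ := fun y => by
    filter_upwards [Ioi_mem_nhds (show -(e / 2) < kap σ x y by linarith [kap_nonneg hσ x y])] with s hs
    rw [h1 s hs, one_mul]
  have h5 : ∀ y, χ (kap σ x y) * φ (kap σ x y) = φ (kap σ x y) := fun y => (h4 y).eq_of_nhds
  simpa only [h5, (h4 _).deriv_eq] using V.fv_rad _ h3 x fun y => (h5 y).symm ▸ h0 y

theorem fv_one (x : X) : ∫ o, n * (1 + σ * kap σ x (V.p o)) ∂V.ν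
    ≤ Λ * ∫ o, √(sn σ (dist x (V.p o)) ^ 2 - ‖V.ξ o x‖ ^ 2) ∂V.ν := by
  simpa using V.fv_rad (fun _ => 1) contDiff_const x fun _ => zero_le_one

theorem core0_int {f : X → ℝ} (hf : Continuous f) : Integrable (fun o => f (V.p o)) V.ν := by
  obtain ⟨C, hC⟩ := isCompact_univ.exists_bound_of_continuousOn hf.continuousOn
  exact Integrable.of_bound (hf.measurable.comp V.meas_p).aestronglyMeasurable C
    (Eventually.of_forall fun o => hC _ trivial)

omit [CompactSpace X] [BorelSpace X] in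
theorem core0_sqrt_le (o : Ω) (x : X) :
    √(sn σ (dist x (V.p o)) ^ 2 - ‖V.ξ o x‖ ^ 2) ≤ sn σ (dist x (V.p o)) :=
  Real.sqrt_le_iff.2 ⟨(norm_nonneg _).trans (V.bound o x), sub_le_self _ (sq_nonneg _)⟩

theorem core0_int_sqrt (x : X) :
    Integrable (fun o => √(sn σ (dist x (V.p o)) ^ 2 - ‖V.ξ o x‖ ^ 2)) V.ν := by
  have h : Continuous fun y => sn σ (dist x y) := (continuous_sn σ).comp (by fun_prop)
  refine (V.core0_int h).mono' (Measurable.aestronglyMeasurable ?_) (Eventually.of_forall fun o => ?_)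
  · exact (((h.measurable.comp V.meas_p).pow_const 2).sub ((V.meas_ξ x).norm.pow_const 2)).sqrt
  · rw [Real.norm_of_nonneg (Real.sqrt_nonneg _)]
    exact V.core0_sqrt_le o x

omit [CompactSpace X] [BorelSpace X] in
theorem core0_ne (hM : 0 < V.M) : Nonempty X := by
  rcases isEmpty_or_nonempty Ω with h | ⟨⟨o⟩⟩
  · simp [M, univ_eq_empty_iff.2 h] at hM
  · exact ⟨V.p o⟩

/-- `h² > 0`: otherwise `Λ sn ≤ n √σ sn < n cs` pointwise contradicts `fv_one` -/
theorem lt_sq (hσ : 0 ≤ σ) (hΛ : 0 < Λ) (hn : n ≠ 0) (hM : 0 < V.M) : σ < (Λ / n) ^ 2 := by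
  by_contra h
  obtain ⟨x⟩ := V.core0_ne hM
  have hn' : (0 : ℝ) < n := Nat.cast_pos.2 (Nat.pos_of_ne_zero hn)
  rw [not_lt, div_pow, div_le_iff₀ (by positivity)] at h
  have h1 := V.core0_int (f := fun y => n * (1 + σ * kap σ x y))
    (continuous_const.mul (continuous_const.add (continuous_const.mul
      ((continuous_kap σ).comp (Continuous.prodMk_right x)))))
  have h2 := (V.core0_int_sqrt x).const_mul Λ
  have h3 : ∀ o, 0 < n * (1 + σ * kap σ x (V.p o)) - Λ * √(sn σ (dist x (V.p o)) ^ 2 - ‖V.ξ o x‖ ^ 2) := fun o => by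
    have h4 := kap_nonneg hσ x (V.p o)
    refine sub_pos.2 ((mul_le_mul_of_nonneg_left (V.core0_sqrt_le o x) hΛ.le).trans_lt
      (lt_of_pow_lt_pow_left₀ 2 (by positivity) ?_))
    rw [mul_pow, sn_sq hσ, ← kap]
    refine (mul_le_mul_of_nonneg_right h (by positivity)).trans_lt ?_
    nlinarith [pow_pos hn' 2]
  have h4 := (integral_pos_iff_support_of_nonneg (fun o => (h3 o).le) (h1.sub h2)).2 (by
    rw [Function.support_eq_univ fun o => (h3 o).ne']
    exact (ENNReal.toReal_pos_iff.1 hM).1)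
  rw [integral_sub h1 h2, integral_const_mul Λ] at h4
  linarith [V.fv_one x]

omit [MetricSpace X] [CompactSpace X] [MeasurableSpace X] [BorelSpace X] in
theorem core0_layer (ν : Measure Ω) [IsFiniteMeasure ν] {f : Ω → ℝ} (hf : Integrable f ν)
    (hf0 : ∀ o, 0 ≤ f o) {G : ℝ → ℝ} (hG : Continuous G) (hG0 : ∀ r, 0 ≤ G r) {c R : ℝ} (hc : 0 < c)
    (hR : 0 ≤ R) (m : ℕ)
    (h : ∀ t, ∀ a ∈ Ioc 0 R, t < G a → c * a ^ (m + 1) ≤ ν.real {o | t < f o}) :
    ∫ r in (0 : ℝ)..R, c * ((m + 1) * r ^ m) * G r ≤ ∫ o, f o ∂ν := by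
  have key : ∀ (g : ℝ → ℝ) (b : ℝ), Continuous g → (∀ r, 0 ≤ r → 0 ≤ g r) → 0 ≤ b →
      ENNReal.ofReal (∫ r in (0 : ℝ)..b, g r) = ∫⁻ r in Ioc 0 b, ENNReal.ofReal (g r) := by
    intro g b hg hg0 hb
    rw [intervalIntegral.integral_of_le hb, ofReal_integral_eq_lintegral_ofReal
      (hg.integrableOn_Icc.mono_set Ioc_subset_Icc_self)]
    filter_upwards [ae_restrict_mem measurableSet_Ioc] with r hr using hg0 r hr.1.le
  have hw : Measurable fun r : ℝ => ENNReal.ofReal (c * ((m + 1) * r ^ m)) := by fun_prop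
  rw [← ENNReal.ofReal_le_ofReal_iff (integral_nonneg hf0),
    ofReal_integral_eq_lintegral_ofReal hf (Eventually.of_forall hf0),
    lintegral_eq_lintegral_meas_lt ν (Eventually.of_forall hf0) hf.aemeasurable,
    key _ R (by fun_prop) (fun r hr => by have := hG0 r; positivity) hR]
  have h1 : ∫⁻ r in Ioc 0 R, ENNReal.ofReal (c * ((m + 1) * r ^ m) * G r) = ∫⁻ r, ENNReal.ofReal (G r)
      ∂(volume.restrict (Ioc 0 R)).withDensity fun r => ENNReal.ofReal (c * ((m + 1) * r ^ m)) := by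
    rw [lintegral_withDensity_eq_lintegral_mul _ hw (by fun_prop)]
    exact lintegral_congr fun r => ENNReal.ofReal_mul' (hG0 r)
  rw [h1, lintegral_eq_lintegral_meas_lt _ (Eventually.of_forall hG0) hG.aemeasurable]
  refine lintegral_mono fun t => ?_
  have hS : MeasurableSet {a | t < G a} := measurableSet_lt measurable_const hG.measurable
  have hT : 0 ≤ ν.real {o | t < f o} / c := div_nonneg measureReal_nonneg hc.le
  obtain ⟨b, hb0, hb⟩ : ∃ b : ℝ, 0 ≤ b ∧ b ^ (m + 1) = ν.real {o | t < f o} / c :=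
    ⟨_, Real.rpow_nonneg hT _, Real.rpow_inv_natCast_pow hT m.succ_ne_zero⟩
  rw [withDensity_apply _ hS, Measure.restrict_restrict hS]
  refine (lintegral_mono_set (t := Ioc 0 b) fun a ha => ⟨ha.2.1, ?_⟩).trans_eq ?_
  · refine le_of_pow_le_pow_left₀ m.succ_ne_zero hb0 ?_
    rw [hb, le_div_iff₀' hc]
    exact h t a ha.2 ha.1
  · rw [← key _ b (by fun_prop) (fun r hr => by positivity) hb0, intervalIntegral.integral_const_mul,
      intervalIntegral.integral_const_mul, integral_pow, hb, ← ofReal_measureReal]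
    congr 1
    field_simp
    ring

/-- Lower density and a radial kernel: for `F ≥ 0` continuous and antitone on `[0, ∞)`,
`liminf_{e → 0} e^{-n/2} ∫ F (κ_x / e) dν ≥ n ω_n ∫₀^∞ F (r²/2) r^{n-1} dr` for a.e. `x`.
Layer cake: `∫ F (κ/e) = ∫₀^{F 0} ν {F (κ/e) > t} dt`, `{F > t} ⊇ [0, s)`, and
`ν {κ < e s} ≥ (1-ε) ω_n (2 e s)^{n/2} (1 - o(1))` by `dens` and `md_le`; or approximate `F` from below
by step functions `∑ c_i 1_{[0, s_i]}`. Stated with a truncation `R`. -/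
theorem ae_dens_kernel (hσ : 0 ≤ σ) (F : ℝ → ℝ) (hF : ContinuousOn F (Ici 0))
    (hFa : AntitoneOn F (Ici 0)) (hF0 : ∀ s, 0 ≤ s → 0 ≤ F s) :
    ∀ᵐ o ∂V.ν, ∀ R > 0, ∀ δ > 0, ∀ᶠ e in 𝓝[>] (0 : ℝ),
      n * om n * (∫ r in (0 : ℝ)..R, F (r ^ 2 / 2) * r ^ (n - 1)) - δ
        ≤ (e ^ (n / 2 : ℝ))⁻¹ *
          ∫ o' in {o' | kap σ (V.p o) (V.p o') ≤ e * R ^ 2}, F (kap σ (V.p o) (V.p o') / e) ∂V.ν := by
  have hd : ∀ k : ℕ, ∀ᵐ o ∂V.ν, ∃ ρ₀ > 0, ∀ ρ ∈ Ioo (0 : ℝ) ρ₀,
      (1 - 1 / (k + 1 : ℝ)) * om n * ρ ^ n ≤ V.ν.real {o' | dist (V.p o') (V.p o) ≤ ρ} := fun k => by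
    obtain ⟨ρ₀, h0, h⟩ := V.dens (1 / (k + 1 : ℝ)) (by positivity)
    exact h.mono fun o ho => ⟨ρ₀, h0, ho⟩
  filter_upwards [ae_all_iff.2 hd] with o ho R hR δ hδ
  have hk0 : ∀ y, 0 ≤ kap σ (V.p o) y := fun y => md_nonneg hσ _
  rcases n with _ | m
  · filter_upwards [self_mem_nhdsWithin] with e (he : 0 < e)
    have : 0 ≤ ∫ o' in {o' | kap σ (V.p o) (V.p o') ≤ e * R ^ 2},
        F (kap σ (V.p o) (V.p o') / e) ∂V.ν := integral_nonneg fun _ => hF0 _ (div_nonneg (hk0 _) he.le)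
    simp only [Nat.cast_zero, zero_mul, zero_div, Real.rpow_zero, inv_one, one_mul]
    linarith
  set I := ((m + 1 : ℕ) : ℝ) * om (m + 1) * ∫ r in (0 : ℝ)..R, F (r ^ 2 / 2) * r ^ (m + 1 - 1) with hI
  have h1 : Tendsto (fun k : ℕ => (1 - 1 / (k + 1 : ℝ))) atTop (𝓝 1) := by
    simpa using tendsto_one_div_add_atTop_nhds_zero_nat.const_sub (1 : ℝ)
  have h2 : Tendsto (fun k : ℕ => (1 - 1 / (k + 1 : ℝ)) ^ (m + 2) * I) atTop (𝓝 I) := by
    simpa using (h1.pow (m + 2)).mul_const I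
  obtain ⟨k, hk1, hk2⟩ := ((h1.eventually (lt_mem_nhds one_pos)).and
    (h2.eventually (lt_mem_nhds (sub_lt_self I hδ)))).exists
  obtain ⟨ρ₀, hρ₀, hρ⟩ := ho k
  have hθ1 : 1 - 1 / (k + 1 : ℝ) < 1 := sub_lt_self _ (by positivity)
  generalize 1 - 1 / (k + 1 : ℝ) = θ at hk1 hk2 hρ hθ1
  have h3 : Tendsto (fun e : ℝ => √e * R) (𝓝[>] 0) (𝓝 0) := by
    refine tendsto_nhdsWithin_of_tendsto_nhds (Continuous.tendsto' (by fun_prop) _ _ (by simp))
  have h4 : Tendsto (fun e : ℝ => θ ^ 2 * (1 + σ * md σ (√e * R))) (𝓝[>] 0) (𝓝 (θ ^ 2)) := by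
    simpa using (((((continuous_md σ).tendsto' 0 0 (md_zero σ)).comp h3).const_mul σ).const_add
      1).const_mul (θ ^ 2)
  filter_upwards [self_mem_nhdsWithin, h3.eventually (gt_mem_nhds hρ₀),
    h4.eventually (gt_mem_nhds (pow_lt_one₀ hk1.le hθ1 two_ne_zero))] with e (he : 0 < e) he1 he2
  have hs : 0 < √e := Real.sqrt_pos.2 he
  have hom := om_pos (m + 1)
  have hc : Continuous fun y => F (kap σ (V.p o) y / e) :=
    hF.comp_continuous (((continuous_md σ).comp (continuous_const.dist continuous_id)).div_const e)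
      fun y => div_nonneg (hk0 y) he.le
  obtain ⟨C, hC⟩ := isCompact_univ.exists_bound_of_continuousOn hc.continuousOn
  have hm : Measurable fun o' => F (kap σ (V.p o) (V.p o') / e) := hc.measurable.comp V.meas_p
  have h5 := core0_layer (V.ν.restrict {o' | kap σ (V.p o) (V.p o') ≤ e * R ^ 2})
    (f := fun o' => F (kap σ (V.p o) (V.p o') / e))
    (Integrable.of_bound hm.aestronglyMeasurable C (Eventually.of_forall fun _ => hC _ (mem_univ _)))
    (fun _ => hF0 _ (div_nonneg (hk0 _) he.le)) (G := fun r => F (r ^ 2 / 2))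
    (hF.comp_continuous (by fun_prop) fun r => by simp only [mem_Ici]; positivity)
    (fun r => hF0 _ (by positivity)) (c := θ * om (m + 1) * (θ * √e) ^ (m + 1)) (by positivity) hR.le m ?_
  · have h6 : e ^ (((m + 1 : ℕ) : ℝ) / 2) = √e ^ (m + 1) := by
      rw [Real.sqrt_eq_rpow, ← Real.rpow_natCast, ← Real.rpow_mul he.le]
      congr 1
      ring
    rw [h6, le_inv_mul_iff₀ (by positivity)]
    refine (mul_le_mul_of_nonneg_left hk2.le (by positivity)).trans (le_of_eq_of_le ?_ h5)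
    rw [hI, ← mul_assoc, ← mul_assoc, ← intervalIntegral.integral_const_mul]
    refine intervalIntegral.integral_congr fun r _ => ?_
    simp only [Nat.add_sub_cancel]
    push_cast
    ring
  · intro t a ha hta
    have h7 : θ * √e * a ≤ √e * R := by
      have := mul_le_mul hθ1.le ha.2 ha.1.le zero_le_one
      nlinarith
    have h8 := hρ (θ * √e * a) ⟨by have := ha.1; positivity, h7.trans_lt he1⟩
    rw [mul_pow, ← mul_assoc] at h8
    refine h8.trans ?_
    rw [measureReal_restrict_apply (measurableSet_lt measurable_const hm)]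
    refine measureReal_mono fun o' ho' => ?_
    have hd : dist (V.p o) (V.p o') ≤ θ * √e * a := by rw [dist_comm]; exact ho'
    have h9 : kap σ (V.p o) (V.p o') ≤ e * (a ^ 2 / 2) := by
      refine (md_le hσ _).trans ?_
      have i1 : md σ (dist (V.p o) (V.p o')) ≤ md σ (√e * R) :=
        md_le_md hσ (by rw [abs_of_nonneg dist_nonneg]; exact hd.trans h7)
      have i2 := pow_le_pow_left₀ dist_nonneg hd 2
      rw [mul_pow, mul_pow, Real.sq_sqrt he.le] at i2
      have i3 := md_nonneg hσ (dist (V.p o) (V.p o'))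
      calc _ ≤ θ ^ 2 * e * a ^ 2 / 2 * (1 + σ * md σ (√e * R)) := by gcongr
        _ = e * (a ^ 2 / 2) * (θ ^ 2 * (1 + σ * md σ (√e * R))) := by ring
        _ ≤ e * (a ^ 2 / 2) := mul_le_of_le_one_right (by positivity) he2.le
    refine ⟨hta.trans_le (hFa (div_nonneg (hk0 _) he.le) (by simp only [mem_Ici]; positivity)
      ((div_le_iff₀' he).2 h9)), h9.trans (mul_le_mul_of_nonneg_left ?_ he.le)⟩
    have := pow_le_pow_left₀ ha.1.le ha.2 2
    nlinarith [sq_nonneg a]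

/-- end of the equality case: barycentre `x₀` (minimiser of `x ↦ ∫ κ_x`), `Hyp.variance` integrated
in `x` gives `2 M ∫ κ_{x₀} ≤ ∫∫ κ`; with `fv_one`: `n M ≤ Λ ∫ r`; expand `∫ (r - n/Λ)² ≤ 0`. -/
theorem exists_center (V : VS 0 Λ n X Ω) (H : Hyp 0 X) (hΛ : 0 < Λ) (hn : n ≠ 0) (hM : 0 < V.M)
    (h : ∫ o, ∫ o', kap 0 (V.p o) (V.p o') ∂V.ν ∂V.ν ≤ V.M ^ 2 * (n / Λ) ^ 2) :
    ∃ x₀ : X, ∀ᵐ o ∂V.ν, dist (V.p o) x₀ = n / Λ := by
  have := V.core0_ne hM
  obtain ⟨C, hC⟩ := isCompact_univ.exists_bound_of_continuousOn (continuous_kap (X := X) 0).continuousOn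
  have hG : Continuous fun x => ∫ o, kap 0 x (V.p o) ∂V.ν :=
    continuous_of_dominated (bound := fun _ => C) (fun x => (V.measurable_kap x).aestronglyMeasurable)
      (fun x => Eventually.of_forall fun o => hC (x, V.p o) trivial) (integrable_const C)
      (Eventually.of_forall fun o => (continuous_kap 0).comp (Continuous.prodMk_left (V.p o)))
  obtain ⟨x₀, -, h0⟩ := isCompact_univ.exists_isMinOn univ_nonempty hG.continuousOn
  have h1 := H.variance le_rfl V.ν V.p V.meas_p (fun _ => 1) (integrable_const 1)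
    (Eventually.of_forall fun _ => zero_le_one) x₀ (fun x => by simpa using h0 (mem_univ x))
  simp only [one_mul, zero_mul, add_zero, integral_const, smul_eq_mul, mul_one, kap_comm 0 _ x₀] at h1
  have k1 : Integrable (fun o => kap 0 x₀ (V.p o)) V.ν :=
    V.core0_int ((continuous_kap 0).comp (Continuous.prodMk_right x₀))
  have h2 := integral_mono ((integrable_const _).add (k1.mul_const _)) (V.core0_int hG) fun o => h1 (V.p o)
  simp only [Pi.add_apply] at h2
  rw [integral_add (integrable_const _) (k1.mul_const _), integral_const, integral_mul_const, smul_eq_mul] at h2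
  have k2 : Integrable (fun o => dist x₀ (V.p o)) V.ν := V.core0_int (by fun_prop)
  have h3 := (V.fv_one x₀).trans (mul_le_mul_of_nonneg_left
    (integral_mono (V.core0_int_sqrt x₀) k2 fun o => (V.core0_sqrt_le o x₀).trans_eq (sn_zero_left _)) hΛ.le)
  simp only [zero_mul, add_zero, mul_one, integral_const, smul_eq_mul] at h3
  change V.M * _ + _ * V.M ≤ _ at h2
  change V.M * _ ≤ _ at h3
  have hρ : 0 ≤ n / Λ := by positivity
  have h4 : V.M * (n / Λ) ≤ ∫ o, dist x₀ (V.p o) ∂V.ν := by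
    rw [← mul_div_assoc, div_le_iff₀' hΛ]
    exact h3
  have h5 : 2 * ∫ o, kap 0 x₀ (V.p o) ∂V.ν ≤ V.M * (n / Λ) ^ 2 :=
    le_of_mul_le_mul_left (by linarith) hM
  have e : ∀ o, (dist x₀ (V.p o) - n / Λ) ^ 2 =
      2 * kap 0 x₀ (V.p o) - 2 * (n / Λ) * dist x₀ (V.p o) + (n / Λ) ^ 2 := fun o => by
    rw [kap, md_zero_left]
    ring
  have k3 : Integrable (fun o => 2 * kap 0 x₀ (V.p o) - 2 * (n / Λ) * dist x₀ (V.p o)) V.ν :=
    (k1.const_mul 2).sub (k2.const_mul (2 * (n / Λ)))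
  have h6 : ∫ o, (dist x₀ (V.p o) - n / Λ) ^ 2 ∂V.ν ≤ 0 := by
    simp only [e]
    rw [integral_add k3 (integrable_const _), integral_sub (k1.const_mul 2) (k2.const_mul _), integral_const_mul,
      integral_const_mul, integral_const, smul_eq_mul]
    change _ + V.M * _ ≤ _
    nlinarith [mul_le_mul_of_nonneg_left h4 hρ]
  have h7 := (integral_eq_zero_iff_of_nonneg (fun o => sq_nonneg _)
    (V.core0_int (f := fun y => (dist x₀ y - n / Λ) ^ 2) (by fun_prop))).1 (h6.antisymm (integral_nonneg fun o => sq_nonneg _))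
  refine ⟨x₀, h7.mono fun o ho => ?_⟩
  rw [dist_comm, ← sub_eq_zero]
  exact pow_eq_zero_iff two_ne_zero |>.1 ho

theorem core0_two_int (hσ : 0 ≤ σ) (x : X) {e : ℝ} (he : 0 < e) {G : ℝ × ℝ × ℝ → ℝ} (hG : Continuous G) :
    Integrable (fun o => G (kap σ x (V.p o), √(sn σ (dist x (V.p o)) ^ 2 - ‖V.ξ o x‖ ^ 2),
      (e + kap σ x (V.p o))⁻¹)) V.ν := by
  obtain ⟨K, hK⟩ := isCompact_univ.exists_bound_of_continuousOn (f := fun y => (kap σ x y, sn σ (dist x y)))
    (((continuous_kap σ).comp (Continuous.prodMk_right x)).prodMk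
      ((continuous_sn σ).comp (continuous_const.dist continuous_id))).continuousOn
  obtain ⟨C, hC⟩ := (isCompact_Icc (a := ((0, 0, 0) : ℝ × ℝ × ℝ)) (b := (K, K, e⁻¹))).exists_bound_of_continuousOn
    hG.continuousOn
  have hm : Measurable fun o => sn σ (dist x (V.p o)) :=
    ((continuous_sn σ).comp (continuous_const.dist continuous_id)).measurable.comp V.meas_p
  refine Integrable.of_bound (hG.measurable.comp ((V.measurable_kap x).prodMk
    (((hm.pow_const 2).sub ((V.meas_ξ x).norm.pow_const 2)).sqrt.prodMk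
      ((V.measurable_kap x).const_add e).inv))).aestronglyMeasurable C (Eventually.of_forall fun o => hC _ ?_)
  have h0 := kap_nonneg hσ x (V.p o)
  obtain ⟨h1, h2⟩ := max_le_iff.1 (hK (V.p o) trivial)
  refine ⟨⟨h0, Real.sqrt_nonneg _, inv_nonneg.2 (add_nonneg he.le h0)⟩, (le_abs_self _).trans h1, ?_,
    inv_anti₀ he (le_add_of_nonneg_right h0)⟩
  exact (Real.sqrt_le_sqrt (sub_le_self _ (sq_nonneg _))).trans ((Real.sqrt_sq_eq_abs _).trans_le h2)

theorem core0_two_fv (V : VS σ Λ 2 X Ω) (hσ : 0 ≤ σ) (x : X) {e : ℝ} (he : 0 < e) (a b c₁ c₂ c₃ : ℝ)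
    (hab : ∀ y, b * (e + kap σ x y) ≤ a)
    (h : ∀ y N u, (e + kap σ x y) * u = 1 → c₁ * kap σ x y + c₂ * u ^ 2 - c₃ ≤
      2 * (1 + σ * kap σ x y) * (a * u - b) - a * u ^ 2 * (2 * kap σ x y + σ * kap σ x y ^ 2 - N ^ 2) -
        Λ * ((a * u - b) * N)) :
    c₁ * ∫ o, kap σ x (V.p o) ∂V.ν + c₂ * ∫ o, (e + kap σ x (V.p o))⁻¹ ^ 2 ∂V.ν ≤ c₃ * V.M := by
  have hW : ∀ y, 0 < e + kap σ x y := fun y => add_pos_of_pos_of_nonneg he (kap_nonneg hσ x y)
  have h1 := V.fv_rad' hσ (fun t => a * (e + t)⁻¹ - b) he ((contDiffOn_const.mul ((contDiffOn_const.add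
    contDiffOn_id).inv fun t ht => (neg_lt_iff_pos_add'.1 ht).ne')).sub contDiffOn_const) x fun y => by
      rw [sub_nonneg, ← div_eq_mul_inv, le_div_iff₀ (hW y)]; exact hab y
  have e1 : ∀ o, ((2 : ℕ) : ℝ) * (1 + σ * kap σ x (V.p o)) * (a * (e + kap σ x (V.p o))⁻¹ - b)
      + deriv (fun t => a * (e + t)⁻¹ - b) (kap σ x (V.p o)) * ‖V.ξ o x‖ ^ 2 =
      2 * (1 + σ * kap σ x (V.p o)) * (a * (e + kap σ x (V.p o))⁻¹ - b) - a * (e + kap σ x (V.p o))⁻¹ ^ 2 *
        (2 * kap σ x (V.p o) + σ * kap σ x (V.p o) ^ 2 - √(sn σ (dist x (V.p o)) ^ 2 - ‖V.ξ o x‖ ^ 2) ^ 2) := fun o => by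
    have hd := (((((hasDerivAt_id' (kap σ x (V.p o))).const_add e).fun_inv (hW _).ne').const_mul a).sub_const b).deriv
    rw [hd, Real.sq_sqrt (sub_nonneg.2 (pow_le_pow_left₀ (norm_nonneg _) (V.bound o x) 2)), sn_sq hσ, inv_pow]
    simp only [kap, Nat.cast_ofNat]
    ring
  simp only [e1] at h1
  have i1 := V.core0_two_int hσ x he (G := fun t => 2 * (1 + σ * t.1) * (a * t.2.2 - b) -
    a * t.2.2 ^ 2 * (2 * t.1 + σ * t.1 ^ 2 - t.2.1 ^ 2)) (by fun_prop)
  have i2 := (V.core0_two_int hσ x he (G := fun t => (a * t.2.2 - b) * t.2.1) (by fun_prop)).const_mul Λ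
  have i3 := (V.core0_two_int hσ x he (G := fun t => t.1) (by fun_prop)).const_mul c₁
  have i4 := (V.core0_two_int hσ x he (G := fun t => t.2.2 ^ 2) (by fun_prop)).const_mul c₂
  have h2 := integral_mono ((i3.add i4).sub (integrable_const c₃)) (i1.sub i2) fun o =>
    h (V.p o) _ _ (mul_inv_cancel₀ (hW _).ne')
  simp only [Pi.sub_apply, Pi.add_apply] at h2
  rw [integral_sub i1 i2, integral_sub (i3.fun_add i4) (integrable_const c₃), integral_add i3 i4, integral_const_mul,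
    integral_const_mul, integral_const_mul, integral_const, smul_eq_mul] at h2
  rw [VS.M]
  linarith

theorem core0_two_dens (V : VS σ Λ 2 X Ω) (hσ : 0 ≤ σ) : ∀ᵐ o ∂V.ν, ∀ δ > 0, ∀ᶠ e in 𝓝[>] (0 : ℝ),
    4 * Real.pi - δ ≤ 2 * e * ∫ o', (e + kap σ (V.p o) (V.p o'))⁻¹ ^ 2 ∂V.ν := by
  have hp := Real.pi_pos
  filter_upwards [V.ae_dens_kernel hσ (fun s => 2 * (1 + s)⁻¹ ^ 2) (continuousOn_const.mul (ContinuousOn.pow
    (ContinuousOn.inv₀ (f := fun s : ℝ => 1 + s) (s := Ici 0) (by fun_prop) fun s hs =>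
      (add_pos_of_pos_of_nonneg one_pos hs).ne') 2))
    (fun s hs t ht hst => by have : (0 : ℝ) ≤ s := hs; have : (0 : ℝ) ≤ t := ht; dsimp only; gcongr)
    fun s _ => by positivity] with o ho δ hδ
  filter_upwards [ho √(16 * Real.pi / δ) (by positivity) (δ / 2) (by positivity), self_mem_nhdsWithin] with e h he
  have he : 0 < e := he
  have hI := intervalIntegral.integral_eq_sub_of_hasDerivAt (a := 0) (b := √(16 * Real.pi / δ))
    (f := fun r => -2 * (1 + r ^ 2 / 2)⁻¹) (f' := fun r => 2 * (1 + r ^ 2 / 2)⁻¹ ^ 2 * r ^ (2 - 1)) (fun r _ =>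
      (((((hasDerivAt_pow 2 r).div_const 2).const_add 1).fun_inv (by positivity)).const_mul (-2)).congr_deriv
        (by rw [inv_pow]; push_cast; ring))
    (Continuous.intervalIntegrable (by fun_prop (disch := intros; positivity)) _ _)
  have e1 : ∀ o', 2 * (1 + kap σ (V.p o) (V.p o') / e)⁻¹ ^ 2 = 2 * e ^ 2 * (e + kap σ (V.p o) (V.p o'))⁻¹ ^ 2 :=
    fun o' => by have := kap_nonneg hσ (V.p o) (V.p o'); field_simp
  simp only [hI, e1, om_two, Real.sq_sqrt (show 0 ≤ 16 * Real.pi / δ by positivity), Nat.cast_ofNat,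
    div_self (two_ne_zero' ℝ), Real.rpow_one, integral_const_mul] at h
  have h2 := setIntegral_le_integral (s := {o' | kap σ (V.p o) (V.p o') ≤ e * (16 * Real.pi / δ)})
    (V.core0_two_int hσ (V.p o) he (G := fun t => t.2.2 ^ 2) (by fun_prop)) (Eventually.of_forall fun _ => sq_nonneg _)
  have h3 : (1 + 16 * Real.pi / δ / 2)⁻¹ ≤ δ / (8 * Real.pi) := by
    rw [← inv_div (8 * Real.pi)]
    exact inv_anti₀ (by positivity) (by rw [div_right_comm]; linarith [show 16 * Real.pi / 2 / δ = 8 * Real.pi / δ by ring])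
  rw [le_div_iff₀ (by positivity)] at h3
  rw [← mul_assoc, show e⁻¹ * (2 * e ^ 2) = 2 * e by field_simp] at h
  have h4 := mul_le_mul_of_nonneg_left h2 (show 0 ≤ 2 * e by positivity)
  dsimp only at h4
  rw [show (1 + 0 ^ 2 / 2 : ℝ)⁻¹ = 1 by norm_num] at h
  linarith

/-- `n = 2`. With `W = e + κ_x`, `N = √(sn² - ‖ξ‖²)`, `h² = Λ²/4 - σ`: `fv_rad'` with `φ = 1/W` and
`Λ N / W ≤ N²/W² + Λ²/4` give `∫ (2e - σ e²)/W² ≤ h² M`, and `∫ 2e/W² → ≥ 4π` (`ae_dens_kernel` with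
`F s = 2/(1+s)²`).  Equality case (`σ = 0`, `h = Λ/2`): `φ = a/W - 1` (`a ≥ e + max κ`) gives
`2h ∫N + a ∫ (N/W - h)² ≤ 2M + a (h² M - ∫ 2e/W²)`; let `e → 0`:
`h² ∫κ ≤ h ∫N + h ∫ W |N/W - h| ≤ M + C/√a`; let `a → ∞`; integrate in `x`. -/
theorem core_two (V : VS σ Λ 2 X Ω) (hσ : 0 ≤ σ) (hΛ : 0 < Λ) (hM : 0 < V.M) : CoreConcl V := by
  have hD := V.core0_two_dens hσ
  refine ⟨?_, ?_⟩
  · have : (ae V.ν).NeBot := ae_neBot.2 fun h => by simp [VS.M, h] at hM
    obtain ⟨o, ho⟩ := hD.exists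
    rw [sph_two, Real.sq_sqrt (sub_pos.2 (V.lt_sq hσ hΛ two_ne_zero hM)).le, Nat.cast_ofNat]
    refine le_of_forall_pos_le_add fun δ hδ => sub_le_iff_le_add.1 ?_
    have ht : Tendsto (fun e : ℝ => 1 - σ * e / 2) (𝓝[>] 0) (𝓝 1) :=
      (Continuous.tendsto' (by fun_prop) 0 1 (by simp)).mono_left nhdsWithin_le_nhds
    refine le_of_tendsto (by simpa only [one_mul] using ht.mul_const (4 * Real.pi - δ)) ?_
    filter_upwards [ho δ hδ, self_mem_nhdsWithin, ht.eventually (lt_mem_nhds one_pos)] with e h he h1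
    have h2 := V.core0_two_fv hσ (V.p o) he 1 0 0 (2 * e - σ * e ^ 2) ((Λ / 2) ^ 2 - σ) (fun y => by simp)
      fun y N u hu => by
        linear_combination sq_nonneg (u * N - Λ / 2) + (u * (2 + σ * (kap σ (V.p o) y - e)) - σ) * hu
    linarith [mul_le_mul_of_nonneg_left h h1.le]
  · rintro rfl hs
    rw [sph_two, Nat.cast_ofNat] at hs
    rw [Nat.cast_ofNat]
    refine (integral_mono_of_nonneg (Eventually.of_forall fun o => integral_nonneg fun o' => kap_nonneg le_rfl _ _)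
      (integrable_const (V.M * (2 / Λ) ^ 2)) ?_).trans_eq (by rw [integral_const, smul_eq_mul, VS.M]; ring)
    filter_upwards [hD] with o ho
    obtain ⟨K, hK⟩ := isCompact_univ.exists_bound_of_continuousOn (f := fun y => kap 0 (V.p o) y)
      ((continuous_kap 0).comp (Continuous.prodMk_right _)).continuousOn
    have key : 2 * (Λ / 2) ^ 2 * ∫ o', kap 0 (V.p o) (V.p o') ∂V.ν ≤ 2 * V.M := by
      have ht := (tendsto_inv_atTop_zero.mul_const (1 + (Λ / 2) ^ 2 * (1 + K) ^ 2 * V.M)).const_add (2 * V.M)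
      refine ge_of_tendsto (by simpa only [zero_mul, add_zero] using ht) ?_
      filter_upwards [eventually_ge_atTop (1 + K), eventually_gt_atTop 0] with a ha ha0
      obtain ⟨e, h, he, he1⟩ := ((ho (a⁻¹ ^ 2) (by positivity)).and (Ioo_mem_nhdsGT one_pos)).exists
      have hW : ∀ y, e + kap 0 (V.p o) y ≤ 1 + K := fun y => add_le_add he1.le ((le_abs_self _).trans (hK y trivial))
      have hac := mul_inv_cancel₀ ha0.ne'
      have h2 := V.core0_two_fv le_rfl (V.p o) he a 1 (2 * (Λ / 2) ^ 2) (a * (2 * e))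
        (2 + a * (Λ / 2) ^ 2 + a⁻¹ * (Λ / 2) ^ 2 * (1 + K) ^ 2) (fun y => (one_mul _).trans_le ((hW y).trans ha))
        fun y N u hu => by
          have k1 := pow_le_pow_left₀ (add_nonneg he.le (kap_nonneg le_rfl _ y)) (hW y) 2
          generalize kap 0 (V.p o) y = k at *
          linear_combination mul_nonneg (inv_pos.2 ha0).le (sq_nonneg (a * (N * u - Λ / 2) + Λ / 2 * (e + k))) +
            mul_le_mul_of_nonneg_left k1 (mul_nonneg (inv_pos.2 ha0).le (sq_nonneg (Λ / 2))) +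
            2 * mul_nonneg (sq_nonneg (Λ / 2)) he.le + (2 * a * u + Λ * N) * hu +
            (a * (N * u - Λ / 2) ^ 2 + Λ * (N * u - Λ / 2) * (e + k)) * hac
      linear_combination h2 + mul_le_mul_of_nonneg_left h ha0.le + mul_le_mul_of_nonneg_left hs ha0.le + a⁻¹ * hac
    refine le_of_mul_le_mul_left (key.trans_eq ?_) (show 0 < 2 * (Λ / 2) ^ 2 by positivity)
    field_simp

end VS

end Crest.Agent.R241
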