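import Crest.Agent.R241.G.Fin

/-!
# Block G: the analytic core for `n ≥ 3`.  Owner helper5; helpers in `R241/G/*`.
-/

open MeasureTheory Set Filter Topology
open Crest.GeometryTopology.MetricCurrent
open Crest.GeometryTopology.Submanifold (Euc unitBallVol unitSphereArea)
open scoped ENNReal NNReal InnerProductSpace

noncomputable section

namespace Crest.Agent.R241

universe u

variable {X : Type u} [MetricSpace X] [CompactSpace X] [MeasurableSpace X] [BorelSpace X]
  {Ω : Type u} [MeasurableSpace Ω] {σ Λ : ℝ} {n : ℕ}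

theorem VS.core_three [StandardBorelSpace Ω] (V : VS σ Λ n X Ω) (hσ : 0 ≤ σ) (H : Hyp σ X)
    (hΛ : 0 < Λ) (hn : 3 ≤ n) (hM : 0 < V.M) : CoreConcl V :=
  VS.Std.coreConcl ⟨hσ, hΛ, hn, hM⟩ H

end Crest.Agent.R241
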