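import Mathlib
import Crest.Prelude.Def_MetricCurrent
import Crest.Prelude.Def_SubmanifoldIsoperimetric

/-!
# Row 241 (S0372, S0373, S0374): definitions.   Owner: helper5.  Blueprint: `notes241/R241.md`.

`σ = -κ ≥ 0`.  `md σ r` solves `y'' = 1 + σ y`, `y 0 = y' 0 = 0`; `sn = md'`; `cs = 1 + σ md`.
`Hyp σ X`: geodesic space with curvature `≤ -σ` (point-side comparison `IsPG.cmp`).
`Ch X k`: "simple chains", countable sums of signed 1-Lipschitz charts; `area` = total volume of the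
parameter domains.  `VS`: the limit object of near-minimisers (first variation + density `≥ 1`).
-/

open MeasureTheory Set Filter Topology
open Crest.GeometryTopology.MetricCurrent
open Crest.GeometryTopology.Submanifold (Euc unitBallVol unitSphereArea)
open scoped ENNReal NNReal InnerProductSpace

noncomputable section

namespace Crest.Agent.R241

universe u

/-! ## Model functions -/

def sn (σ r : ℝ) : ℝ := if σ = 0 then r else Real.sinh (√σ * r) / √σ

def md (σ r : ℝ) : ℝ := if σ = 0 then r ^ 2 / 2 else (Real.cosh (√σ * r) - 1) / σ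

/-- volume of the unit ball of `ℝⁿ` -/
def om (n : ℕ) : ℝ := unitBallVol n

/-- area of the unit `n`-sphere in `ℝⁿ⁺¹` -/
def sph (n : ℕ) : ℝ := unitSphereArea (n + 1)

/-- derivative of the isoperimetric profile (volume as a function of the boundary area) -/
def psi (σ : ℝ) (n : ℕ) (a : ℝ) : ℝ :=
  a ^ (1 / (n : ℝ)) / (n * √(σ * a ^ (2 / (n : ℝ)) + sph n ^ (2 / (n : ℝ))))

/-- the isoperimetric profile: volume of the model `(n+1)`-ball with boundary area `A` -/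
def Psi (σ : ℝ) (n : ℕ) (A : ℝ) : ℝ := ∫ a in (0 : ℝ)..A, psi σ n a

/-! ## Spaces of curvature `≤ -σ` -/

section hyp

variable {X : Type u} [MetricSpace X]

/-- modified distance -/
def kap (σ : ℝ) (x y : X) : ℝ := md σ (dist x y)

/-- a unit speed geodesic from `x` to `y` with the point-side comparison inequality -/
structure IsPG (σ : ℝ) (g : ℝ → X) (x y : X) : Prop where
  zero : g 0 = x
  last : g (dist x y) = y
  iso : ∀ s ∈ Icc 0 (dist x y), ∀ t ∈ Icc 0 (dist x y), dist (g s) (g t) = |s - t|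
  cmp : ∀ p : X, ∀ a ∈ Icc 0 (dist x y),
    sn σ (dist x y) * kap σ p (g a) ≤ sn σ (dist x y - a) * kap σ p x + sn σ a * kap σ p y
      - sn σ a * md σ (dist x y) + sn σ (dist x y) * md σ a

def Hyp (σ : ℝ) (X : Type u) [MetricSpace X] : Prop := ∀ x y : X, ∃ g : ℝ → X, IsPG σ g x y

def Lip (f : X → ℝ) : Prop := ∃ K : ℝ≥0, LipschitzWith K f

end hyp

/-! ## Chains -/

/-- the Jacobian determinant appearing in `chartAction` -/
def jacOn {X : Type u} {k : ℕ} (E : Set (Euc k)) (φ : Euc k → X) (π : Fin k → X → ℝ) (z : Euc k) :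
    ℝ :=
  (Matrix.of fun a j =>
    fderivWithin ℝ (fun w => π a (φ w)) E z (EuclideanSpace.single j 1)).det

/-- `J` bounds the (Euclidean) Jacobian of `φ` at `z` within `E` -/
def MajJ {X : Type u} [MetricSpace X] {k : ℕ} (E : Set (Euc k)) (φ : Euc k → X) (z : Euc k)
    (J : ℝ) : Prop :=
  ∀ δ > 0, ∃ B : Euc k ≃L[ℝ] Euc k, |(B : Euc k →L[ℝ] Euc k).det| ≤ J + δ ∧
    ∀ᶠ z' in 𝓝[E] z, dist (φ z') (φ z) ≤ ‖B (z' - z)‖

/-- a simple `k`-chain: countably many signed 1-Lipschitz charts of finite total volume -/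
structure Ch (X : Type u) [MetricSpace X] (k : ℕ) where
  E : ℕ → Set (Euc k)
  φ : ℕ → Euc k → X
  sg : ℕ → ℝ
  meas : ∀ i, MeasurableSet (E i)
  lip : ∀ i, LipschitzOnWith 1 (φ i) (E i)
  hsg : ∀ i, sg i = 1 ∨ sg i = -1
  fin : ∑' i, volume (E i) ≠ ⊤

namespace Ch

variable {X : Type u} [MetricSpace X] {k : ℕ}

/-- the parameter measure -/
def par (c : Ch X k) : Measure (ℕ × Euc k) :=
  Measure.sum fun i => (volume.restrict (c.E i)).map (Prod.mk i)

def pt (c : Ch X k) (w : ℕ × Euc k) : X := c.φ w.1 w.2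

def area (c : Ch X k) : ℝ := c.par.real univ

/-- tangential gradient of `u`, in the chart -/
def grad (c : Ch X k) (u : X → ℝ) (w : ℕ × Euc k) : Euc k :=
  gradientWithin (fun z => u (c.φ w.1 z)) (c.E w.1) w.2

def jac (c : Ch X k) (π : Fin k → X → ℝ) (w : ℕ × Euc k) : ℝ := jacOn (c.E w.1) (c.φ w.1) π w.2

/-- the action on `f dπ₁ ∧ … ∧ dπ_k` -/
def act (c : Ch X k) (f : X → ℝ) (π : Fin k → X → ℝ) : ℝ :=
  ∫ w, c.sg w.1 * f (c.pt w) * c.jac π w ∂c.par

open Classical in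
/-- the metric current of a chain -/
def cur (c : Ch X k) : Functional X k := fun f π => if IsTestPair f π then c.act f π else 0

/-- all charts take values in `K` -/
def In (c : Ch X k) (K : Set X) : Prop := ∀ i, MapsTo (c.φ i) (c.E i) K

def zero (x : X) (k : ℕ) : Ch X k where
  E _ := ∅
  φ _ _ := x
  sg _ := 1
  meas _ := MeasurableSet.empty
  lip _ := lipschitzOnWith_empty _ _
  hsg _ := Or.inl rfl
  fin := by simp

def neg (c : Ch X k) : Ch X k where
  E := c.E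
  φ := c.φ
  sg i := -c.sg i
  meas := c.meas
  lip := c.lip
  hsg i := by rcases c.hsg i with h | h <;> simp [h]
  fin := c.fin

/-- push-forward under a 1-Lipschitz map -/
def push {Y : Type u} [MetricSpace Y] (c : Ch X k) (h : X → Y) (hh : LipschitzWith 1 h) :
    Ch Y k where
  E := c.E
  φ i z := h (c.φ i z)
  sg := c.sg
  meas := c.meas
  lip i := by
    have := hh.comp_lipschitzOnWith (c.lip i)
    rw [mul_one] at this
    exact this
  hsg := c.hsg
  fin := c.fin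

/-- restriction to a Borel set -/
def restr [MeasurableSpace X] [BorelSpace X] (c : Ch X k) (A : Set X) (hA : MeasurableSet A) :
    Ch X k where
  E i := c.E i ∩ c.φ i ⁻¹' A
  φ := c.φ
  sg := c.sg
  meas i := by
    have h1 : Measurable ((c.E i).domRestrict (c.φ i)) :=
      (c.lip i).continuousOn.domRestrict.measurable
    have h2 := (c.meas i).subtype_image (h1 hA)
    convert h2 using 1
    ext z
    constructor
    · rintro ⟨h, h'⟩
      exact ⟨⟨z, h⟩, h', rfl⟩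
    · rintro ⟨⟨z', h⟩, h', rfl⟩
      exact ⟨h, h'⟩
  lip i := (c.lip i).mono inter_subset_left
  hsg := c.hsg
  fin := ne_top_of_le_ne_top c.fin
    (ENNReal.tsum_le_tsum fun _ => measure_mono inter_subset_left)

/-- cycles (to be used in compact spaces; for `k = 0`: total multiplicity zero) -/
def IsCyc (c : Ch X k) : Prop :=
  ∀ π : Fin k → X → ℝ, (∀ a, Lip (π a)) → c.act (fun _ => 1) π = 0

end Ch

section rel

variable {X : Type u} [MetricSpace X] {k : ℕ}

/-- `∂ S = c` -/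
def IsBd (S : Ch X (k + 1)) (c : Ch X k) : Prop :=
  ∀ f π, IsTestPair f π → S.act (fun _ => 1) (Fin.cons f π) = c.act f π

/-- `c = c' + ∂ R` -/
def Homol (c c' : Ch X k) (R : Ch X (k + 1)) : Prop :=
  ∀ f π, IsTestPair f π → c.act f π = c'.act f π + R.act (fun _ => 1) (Fin.cons f π)

/-- the sharp filling inequality for `n`-cycles of `X` -/
def Fill (σ : ℝ) (X : Type u) [MetricSpace X] (n : ℕ) : Prop :=
  ∀ c : Ch X n, c.IsCyc → ∀ η > 0, ∃ S : Ch X (n + 1), IsBd S c ∧ S.area ≤ Psi σ n c.area + η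

/-- a sequence of cycles that almost minimises `P (area c') + area R` among `c = c' + ∂ R` -/
structure NearMin (P : ℝ → ℝ) (Λ A : ℝ) (c : ℕ → Ch X k) : Prop where
  Λ_pos : 0 < Λ
  A_pos : 0 < A
  mono : MonotoneOn P (Ici 0)
  cont : ContinuousOn P (Ici 0)
  deriv : HasDerivAt P Λ⁻¹ A
  slope : ∃ l > 0, ∀ a ∈ Icc 0 A, P a ≤ P A - l * (A - a)
  cyc : ∀ j, (c j).IsCyc
  area : Tendsto (fun j => (c j).area) atTop (𝓝 A)
  near : ∀ η > 0, ∀ᶠ j in atTop, ∀ c' R, Homol (c j) c' R → P A ≤ P c'.area + R.area + η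

/-- the chains concentrate on the sphere of radius `ρ` about `x₀` -/
def Conc (c : ℕ → Ch X k) (x₀ : X) (ρ : ℝ) : Prop :=
  ∀ g : X → ℝ, Continuous g → (∀ y, dist y x₀ = ρ → g y = 0) →
    Tendsto (fun j => ∫ w, g ((c j).pt w) ∂(c j).par) atTop (𝓝 0)

end rel

/-! ## The limit object -/

section vs

variable {X : Type u} [MetricSpace X] {n m : ℕ}

/-- generating test functions `Φ (κ_{x₁}, …, κ_{x_m})` -/
def gfun (σ : ℝ) (xs : Fin m → X) (Φ : (Fin m → ℝ) → ℝ) (y : X) : ℝ :=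
  Φ fun i => kap σ (xs i) y

/-- their gradients, when `ξ x` is the gradient of `κ_x` -/
def gvec (σ : ℝ) (xs : Fin m → X) (Φ : (Fin m → ℝ) → ℝ) (y : X) (ξ : X → Euc n) : Euc n :=
  ∑ i, fderiv ℝ Φ (fun i => kap σ (xs i) y) (Pi.single i 1) • ξ (xs i)

/-- "varifold with mean curvature `≤ Λ` and density `≥ 1`": `p o` is the position, `ξ o x` the
tangential gradient of `κ_x` -/
structure VS (σ Λ : ℝ) (n : ℕ) (X : Type u) [MetricSpace X] [MeasurableSpace X]
    (Ω : Type u) [MeasurableSpace Ω] where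
  ν : Measure Ω
  fin : IsFiniteMeasure ν
  p : Ω → X
  ξ : Ω → X → Euc n
  meas_p : Measurable p
  meas_ξ : ∀ x, Measurable fun o => ξ o x
  lip_ξ : ∃ C : ℝ≥0, ∀ o, LipschitzWith C (ξ o)
  bound : ∀ o x, ‖ξ o x‖ ≤ sn σ (dist x (p o))
  fv : ∀ (m : ℕ) (xs : Fin m → X) (Φ : (Fin m → ℝ) → ℝ), ContDiff ℝ 1 Φ →
    (∀ y, 0 ≤ gfun σ xs Φ y) → ∀ x : X,
    ∫ o, (n * (1 + σ * kap σ x (p o)) * gfun σ xs Φ (p o)
        + ⟪gvec σ xs Φ (p o) (ξ o), ξ o x⟫_ℝ) ∂ν
      ≤ Λ * ∫ o, gfun σ xs Φ (p o) * √(sn σ (dist x (p o)) ^ 2 - ‖ξ o x‖ ^ 2) ∂ν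
  dens : ∀ ε > 0, ∃ ρ₀ > 0, ∀ᵐ o ∂ν, ∀ ρ ∈ Ioo (0 : ℝ) ρ₀,
    (1 - ε) * om n * ρ ^ n ≤ ν.real {o' | dist (p o') (p o) ≤ ρ}

variable [MeasurableSpace X] {Ω : Type u} [MeasurableSpace Ω] {σ Λ : ℝ}

instance (V : VS σ Λ n X Ω) : IsFiniteMeasure V.ν := V.fin

/-- total mass -/
def VS.M (V : VS σ Λ n X Ω) : ℝ := V.ν.real univ

/-- convergence of the joint laws of position and `∇κ_x` -/
def Conv (c : ℕ → Ch X n) (V : VS σ Λ n X Ω) : Prop :=
  ∀ (x : X) (G : X × Euc n → ℝ), Continuous G →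
    Tendsto (fun j => ∫ w, G ((c j).pt w, (c j).grad (kap σ x) w) ∂(c j).par) atTop
      (𝓝 (∫ o, G (V.p o, V.ξ o x) ∂V.ν))

/-- the conclusion of the analytic core: sharp lower mass bound, and the equality information -/
def CoreConcl (V : VS σ Λ n X Ω) : Prop :=
  sph n ≤ V.M * √((Λ / n) ^ 2 - σ) ^ n ∧
    (σ = 0 → V.M * (Λ / n) ^ n ≤ sph n →
      ∫ o, ∫ o', kap σ (V.p o) (V.p o') ∂V.ν ∂V.ν ≤ V.M ^ 2 * (n / Λ) ^ 2)

end vs

/-! ## Manifold data -/

/-- `j ∘ e` is the exponential map at `x₀` of a Cartan–Hadamard manifold `X`, immersed by `j` -/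
structure Chart {d N : ℕ} {X : Type} [MetricSpace X] (j : X → Euc N) (x₀ : X)
    (e : Euc d ≃ₜ X) : Prop where
  smooth : ContDiff ℝ (⊤ : ℕ∞) (j ∘ e)
  dist_eq : ∀ v, dist (e v) x₀ = ‖v‖
  expand : ∀ v w, ‖w‖ ≤ ‖fderiv ℝ (j ∘ e) v w‖
  loc : ∀ v, ∀ ε > 0, ∀ᶠ q : Euc d × Euc d in 𝓝 (v, v),
    |dist (e q.1) (e q.2) - ‖fderiv ℝ (j ∘ e) v (q.1 - q.2)‖| ≤ ε * ‖q.1 - q.2‖

/-- `X` is the submanifold `S` with its intrinsic metric -/
structure Geo (σ : ℝ) (d : ℕ) {N : ℕ} (S : Set (Euc N)) (X : Type) [MetricSpace X]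
    (j : X → Euc N) : Prop where
  proper : ProperSpace X
  nonempty : Nonempty X
  hyp : Hyp σ X
  emb : IsEmbedding j
  lip : LipschitzWith 1 j
  range_eq : range j = S
  chart : ∀ x₀ : X, ∃ e : Euc d ≃ₜ X, Chart j x₀ e

end Crest.Agent.R241
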