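import Crest.Agent.R241.Trig
import Crest.Agent.R241.HypA.CatB

/-!
# Block A: spaces of curvature `≤ -σ`.  Helper prefix `hypA_`.
-/

open MeasureTheory Set Filter Topology
open Crest.GeometryTopology.MetricCurrent
open Crest.GeometryTopology.Submanifold (Euc unitBallVol unitSphereArea)
open scoped ENNReal NNReal InnerProductSpace

noncomputable section

namespace Crest.Agent.R241

universe u

variable {X : Type u} [MetricSpace X] {σ : ℝ}

theorem kap_comm (σ : ℝ) (x y : X) : kap σ x y = kap σ y x := by rw [kap, kap, dist_comm]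
@[simp] theorem kap_self (σ : ℝ) (x : X) : kap σ x x = 0 := by simp [kap]
theorem kap_nonneg (hσ : 0 ≤ σ) (x y : X) : 0 ≤ kap σ x y := md_nonneg hσ _
theorem continuous_kap (σ : ℝ) : Continuous fun q : X × X => kap σ q.1 q.2 :=
  (continuous_md σ).comp continuous_dist

/-- from `md_add_le`, `md_le_md` -/
theorem kap_triangle (hσ : 0 ≤ σ) (x y z : X) :
    kap σ x y ≤ 2 * (kap σ x z + kap σ z y + σ * kap σ x z * kap σ z y) := by
  refine (md_le_md hσ ?_).trans (md_add_le hσ (dist x z) (dist z y))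
  rw [abs_of_nonneg dist_nonneg]
  exact dist_triangle x z y

theorem IsPG.dist_left {g : ℝ → X} {x y : X} (h : IsPG σ g x y) {a : ℝ}
    (ha : a ∈ Icc 0 (dist x y)) : dist x (g a) = a := by
  have := h.iso 0 ⟨le_rfl, dist_nonneg⟩ a ha
  rwa [h.zero, zero_sub, abs_neg, abs_of_nonneg ha.1] at this

theorem IsPG.dist_right {g : ℝ → X} {x y : X} (h : IsPG σ g x y) {a : ℝ}
    (ha : a ∈ Icc 0 (dist x y)) : dist (g a) y = dist x y - a := by
  have := h.iso a ha _ ⟨dist_nonneg, le_rfl⟩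
  rwa [h.last, abs_sub_comm, abs_of_nonneg (sub_nonneg.2 ha.2)] at this

/-- (Q) hinge comparison: apply `cmp` of `g` with `p = g' a'`, then `cmp` of `g'` with `p = y`;
the rest is an identity between model functions (`md_sub`, `sn_sub`). If `r = 0` or `r' = 0` both
sides vanish. -/
theorem IsPG.hinge (hσ : 0 ≤ σ) {g g' : ℝ → X} {x y y' : X} (h : IsPG σ g x y)
    (h' : IsPG σ g' x y') {a a' : ℝ} (ha : a ∈ Icc 0 (dist x y)) (ha' : a' ∈ Icc 0 (dist x y')) :
    sn σ (dist x y) * sn σ (dist x y') * kap σ (g a) (g' a')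
      ≤ sn σ (dist x y) * sn σ (dist x y') * md σ (a - a')
        + sn σ a * sn σ a' * (kap σ y y' - md σ (dist x y - dist x y')) := by
  have h1 := mul_le_mul_of_nonneg_left (h.cmp (g' a') a ha) (sn_nonneg hσ (dist_nonneg (x := x) (y := y')))
  have h2 := mul_le_mul_of_nonneg_left (h'.cmp y a' ha') (sn_nonneg hσ ha.1)
  have e1 : kap σ (g' a') x = md σ a' := by rw [kap, dist_comm, h'.dist_left ha']
  have e2 : kap σ y x = md σ (dist x y) := by rw [kap, dist_comm]
  rw [e1, kap_comm σ (g' a') (g a), kap_comm σ (g' a') y, sn_sub hσ] at h1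
  rw [e2, sn_sub hσ] at h2
  rw [md_sub hσ, md_sub hσ]
  linarith

/-- Bruhat–Tits inequality at dyadic points, then continuity. -/
theorem hyp_of_catZero (h : IsCATZero X) : Hyp 0 X := hypAb_hyp_of_catZero h

/-- For `σ > 0`: `cmp` reads `sn r cs d(p, g a) ≤ sn (r-a) cs d(p,x) + sn a cs d(p,y)` with
`cs = cosh (√σ ·)`; a midpoint `m` equals `g (r/2)` (`cmp` with `p = m`); the Bruhat–Tits inequality
follows from concavity of `t ↦ log cosh √t` (`cosh b + cosh c = 2 cosh ((b+c)/2) cosh ((b-c)/2)`,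
`|b-c| ≤ r ≤ b+c`). -/
theorem Hyp.catZero (hσ : 0 ≤ σ) (h : Hyp σ X) : IsCATZero X := hypAb_catZero hσ h

theorem Hyp.zero (hσ : 0 ≤ σ) (h : Hyp σ X) : Hyp 0 X := hyp_of_catZero (h.catZero hσ)

/-- Reshetnyak: `0 ≤ d(m, m')²` for `m ∈ [x, y]`, `m' ∈ [x', y']` with the same parameter `t`,
`cmp` twice, optimise in `t`. -/
theorem Hyp.quad (h : Hyp 0 X) (x x' y y' : X) :
    dist x y ^ 2 + dist x' y' ^ 2
      ≤ dist x y' ^ 2 + dist x' y ^ 2 + 2 * dist x x' * dist y y' := hypAb_quad h x x' y y'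

/-- closed balls are convex -/
theorem IsPG.mem_closedBall (hσ : 0 ≤ σ) {g : ℝ → X} {x y x₀ : X} {R : ℝ} (h : IsPG σ g x y)
    (hx : x ∈ Metric.closedBall x₀ R) (hy : y ∈ Metric.closedBall x₀ R) {a : ℝ}
    (ha : a ∈ Icc 0 (dist x y)) : g a ∈ Metric.closedBall x₀ R := by
  rcases (dist_nonneg (x := x) (y := y)).eq_or_lt with hr | hr
  · rw [le_antisymm (ha.2.trans hr.ge) ha.1, h.zero]
    exact hx
  have hR : 0 ≤ R := dist_nonneg.trans hx
  have hb : 0 ≤ dist x y - a := sub_nonneg.2 ha.2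
  have h1 := h.cmp x₀ a ha
  have k1 : kap σ x₀ x ≤ md σ R := md_le_md hσ (by rw [abs_of_nonneg dist_nonneg, dist_comm]; exact hx)
  have k2 : kap σ x₀ y ≤ md σ R := md_le_md hσ (by rw [abs_of_nonneg dist_nonneg, dist_comm]; exact hy)
  have s1 := sn_add hσ a (dist x y - a)
  have s2 := md_add hσ a (dist x y - a)
  rw [add_sub_cancel] at s1 s2
  have p1 := sn_nonneg hσ ha.1
  have p2 := sn_nonneg hσ hb
  have p3 := md_nonneg hσ a
  have p4 := md_nonneg hσ (dist x y - a)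
  have p5 := md_nonneg hσ R
  have q1 : sn σ (dist x y) * md σ a ≤ sn σ a * md σ (dist x y) := by
    have : sn σ a * md σ (dist x y) - sn σ (dist x y) * md σ a =
        sn σ a * md σ (dist x y - a) + sn σ (dist x y - a) * md σ a := by
      rw [s1, s2]
      linear_combination sn σ (dist x y - a) * sn_sq hσ a
    nlinarith [mul_nonneg p1 p4, mul_nonneg p2 p3]
  have q2 : sn σ (dist x y - a) + sn σ a ≤ sn σ (dist x y) := by
    nlinarith [mul_nonneg p1 (mul_nonneg hσ p4), mul_nonneg p2 (mul_nonneg hσ p3)]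
  have q3 : sn σ (dist x y) * kap σ x₀ (g a) ≤ sn σ (dist x y) * md σ R := by
    nlinarith [mul_le_mul_of_nonneg_left k1 p2, mul_le_mul_of_nonneg_left k2 p1,
      mul_le_mul_of_nonneg_right q2 p5]
  have q4 := le_of_md_le hσ hR (le_of_mul_le_mul_left q3 (sn_pos hσ hr))
  rwa [abs_of_nonneg dist_nonneg, dist_comm] at q4

theorem Hyp.closedBall (hσ : 0 ≤ σ) (h : Hyp σ X) (x₀ : X) (R : ℝ) :
    Hyp σ (Metric.closedBall x₀ R) := by
  classical
  intro x y
  obtain ⟨g, hg⟩ := h x y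
  let g' : ℝ → Metric.closedBall x₀ R := fun a => if h : g a ∈ Metric.closedBall x₀ R then ⟨g a, h⟩ else x
  have e : ∀ a ∈ Icc 0 (dist x y), (g' a : X) = g a := fun a ha => by
    simp only [g', dif_pos (hg.mem_closedBall hσ x.2 y.2 ha)]
  refine ⟨g', Subtype.ext ((e 0 ⟨le_rfl, dist_nonneg⟩).trans hg.zero),
    Subtype.ext ((e _ ⟨dist_nonneg, le_rfl⟩).trans hg.last), fun s hs t ht => ?_, fun p a ha => ?_⟩
  · rw [Subtype.dist_eq, e s hs, e t ht]
    exact hg.iso s hs t ht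
  · have := hg.cmp p a ha
    rw [← e a ha] at this
    exact this

/-- radial projection (use `Hyp.zero` and `hinge` with `σ = 0`) -/
theorem Hyp.exists_retr (hσ : 0 ≤ σ) (h : Hyp σ X) (x₀ : X) {R : ℝ} (hR : 0 ≤ R) :
    ∃ P : X → Metric.closedBall x₀ R, LipschitzWith 1 P ∧
      ∀ y ∈ Metric.closedBall x₀ R, (P y : X) = y := by
  choose g hg using h.zero hσ x₀
  have hm : ∀ y, min (dist x₀ y) R ∈ Icc 0 (dist x₀ y) := fun y => ⟨le_min dist_nonneg hR, min_le_left _ _⟩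
  have hd : ∀ y, dist x₀ (g y (min (dist x₀ y) R)) = min (dist x₀ y) R := fun y => (hg y).dist_left (hm y)
  refine ⟨fun y => ⟨g y (min (dist x₀ y) R), by
    rw [Metric.mem_closedBall, dist_comm, hd]; exact min_le_right _ _⟩,
    LipschitzWith.of_dist_le_mul fun y y' => ?_, fun y hy => ?_⟩
  · rw [NNReal.coe_one, one_mul, Subtype.dist_eq]
    have h0 : ∀ y', dist (g x₀ (min (dist x₀ x₀) R)) (g y' (min (dist x₀ y') R)) ≤ dist x₀ y' := fun y' => by
      rw [dist_self, min_eq_left hR, (hg x₀).zero, hd]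
      exact min_le_left _ _
    rcases eq_or_ne x₀ y with rfl | hy
    · exact h0 y'
    rcases eq_or_ne x₀ y' with rfl | hy'
    · rw [dist_comm, dist_comm y]
      exact h0 y
    have h1 := (hg y).hinge le_rfl (hg y') (hm y) (hm y')
    simp only [kap, sn_zero_left, md_zero_left] at h1
    have p : 0 < dist x₀ y * dist x₀ y' := mul_pos (dist_pos.2 hy) (dist_pos.2 hy')
    have h2 : min (dist x₀ y) R * min (dist x₀ y') R ≤ dist x₀ y * dist x₀ y' :=
      mul_le_mul (hm y).2 (hm y').2 (hm y').1 dist_nonneg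
    have h3 : (dist x₀ y - dist x₀ y') ^ 2 ≤ dist y y' ^ 2 := by
      refine sq_le_sq.2 ?_
      rw [abs_of_nonneg dist_nonneg, dist_comm x₀, dist_comm x₀]
      exact abs_dist_sub_le _ _ _
    have h4 : (min (dist x₀ y) R - min (dist x₀ y') R) ^ 2 ≤ (dist x₀ y - dist x₀ y') ^ 2 :=
      sq_le_sq.2 ((abs_min_sub_min_le_max _ _ _ _).trans (by simp))
    have h5 := mul_le_mul_of_nonneg_right h2 (sub_nonneg.2 h3)
    have h6 := mul_le_mul_of_nonneg_left h4 p.le
    refine le_of_sq_le_sq (le_of_mul_le_mul_left ?_ p) dist_nonneg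
    linarith
  · rw [Metric.mem_closedBall, dist_comm] at hy
    simp only [min_eq_left hy, (hg y).last]

theorem exists_lip_kap [CompactSpace X] (hσ : 0 ≤ σ) :
    ∃ L : ℝ≥0, ∀ x : X, LipschitzWith L (kap σ x) := by
  obtain ⟨L, hL⟩ := (contDiff_md σ).contDiffOn.exists_lipschitzOnWith (by simp)
    (convex_Icc 0 (Metric.diam (univ : Set X))) isCompact_Icc
  refine ⟨L, fun x => LipschitzWith.of_dist_le_mul fun y y' => ?_⟩
  have hb : ∀ z, dist x z ∈ Icc 0 (Metric.diam (univ : Set X)) := fun z =>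
    ⟨dist_nonneg, Metric.dist_le_diam_of_mem isCompact_univ.isBounded trivial trivial⟩
  exact (hL.dist_le_mul _ (hb y) _ (hb y')).trans
    (mul_le_mul_of_nonneg_left (dist_dist_dist_le_right x y y') L.2)

theorem lip_kap [CompactSpace X] (hσ : 0 ≤ σ) (x : X) : Lip (kap σ x) :=
  (exists_lip_kap hσ).imp fun _ h => h x

theorem hypAc_dslope (σ : ℝ) : ContDiff ℝ 1 (dslope (sn σ) 0) := by
  refine contDiff_iff_contDiffAt.2 fun r => ?_
  rcases eq_or_ne r 0 with rfl | hr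
  · obtain ⟨p, hp⟩ : AnalyticAt ℝ (sn σ) 0 := by
      unfold sn
      split_ifs
      · exact analyticAt_id
      · fun_prop
    exact hp.has_fpower_series_dslope_fslope.analyticAt.contDiffAt
  · refine ContDiffAt.congr_of_eventuallyEq ?_ (dslope_eventuallyEq_slope_of_ne _ hr)
    rw [slope_fun_def_field]
    exact (((contDiff_sn σ).of_le (by simp)).contDiffAt.sub contDiffAt_const).div
      (contDiffAt_id.sub contDiffAt_const) (by simpa using hr)

theorem hypAc_md_sub (hσ : 0 ≤ σ) (u v : ℝ) : md σ u - md σ v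
    = (u ^ 2 - v ^ 2) / 2 * (dslope (sn σ) 0 ((u + v) / 2) * dslope (sn σ) 0 ((u - v) / 2)) := by
  have h1 := md_add hσ ((u + v) / 2) ((u - v) / 2)
  have h2 := md_sub hσ ((u + v) / 2) ((u - v) / 2)
  have h3 := sub_smul_dslope (sn σ) 0 ((u + v) / 2)
  have h4 := sub_smul_dslope (sn σ) 0 ((u - v) / 2)
  rw [sn_zero, sub_zero, sub_zero, smul_eq_mul] at h3 h4
  rw [show (u + v) / 2 + (u - v) / 2 = u by ring] at h1
  rw [show (u + v) / 2 - (u - v) / 2 = v by ring] at h2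
  rw [h1, h2, ← h3, ← h4]
  ring

/-- `md r = F (r²/2)` with `F` smooth (or: `C²` in `r²/2` on bounded sets); `a = d_x²/2`,
`b = d_{x'}²/2`: `a - b` is `d(x,x')`-Lipschitz (`quad`), `|a - b| ≤ D d(x,x')`,
`F a - F b = ∫₀¹ F' (b + s (a - b)) ds · (a - b)`.  One may take for `F` the power series
`∑ σ^k (2t)^(k+1) / (2k+2)!`, or avoid it with `F' (r²/2) = sn r / r` being Lipschitz in `r`. -/
theorem Hyp.exists_lip_kap_sub [CompactSpace X] (hσ : 0 ≤ σ) (h : Hyp σ X) :
    ∃ C : ℝ≥0, ∀ x x' : X,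
      LipschitzWith (C * nndist x x') fun y => kap σ x y - kap σ x' y := by
  obtain ⟨D, hD0, hD⟩ : ∃ D : ℝ, 0 ≤ D ∧ ∀ a b : X, dist a b ≤ D :=
    ⟨_, Metric.diam_nonneg, fun a b =>
      Metric.dist_le_diam_of_mem isCompact_univ.isBounded (mem_univ a) (mem_univ b)⟩
  obtain ⟨K, hK⟩ : ∃ K : ℝ × ℝ → ℝ, K = fun p =>
    dslope (sn σ) 0 ((p.1 + p.2) / 2) * dslope (sn σ) 0 ((p.1 - p.2) / 2) := ⟨_, rfl⟩
  have hK1 : ContDiff ℝ 1 K := hK ▸ ((hypAc_dslope σ).comp (by fun_prop)).mul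
    ((hypAc_dslope σ).comp (by fun_prop))
  obtain ⟨L, hL⟩ := hK1.contDiffOn.exists_lipschitzOnWith one_ne_zero
    ((convex_Icc 0 D).prod (convex_Icc 0 D)) (isCompact_Icc.prod isCompact_Icc)
  obtain ⟨M, hM⟩ := (isCompact_Icc.prod isCompact_Icc).exists_bound_of_continuousOn
    (hK1.continuous.continuousOn (s := Icc 0 D ×ˢ Icc 0 D))
  have hM0 : 0 ≤ M := (norm_nonneg _).trans (hM (0, 0) ⟨⟨le_rfl, hD0⟩, le_rfl, hD0⟩)
  refine ⟨⟨M + D * L, by positivity⟩, fun x x' => LipschitzWith.of_dist_le_mul fun y y' => ?_⟩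
  have hb : ∀ z, (dist x z, dist x' z) ∈ Icc 0 D ×ˢ Icc 0 D := fun z =>
    ⟨⟨dist_nonneg, hD _ _⟩, dist_nonneg, hD _ _⟩
  have e : ∀ z, kap σ x z - kap σ x' z
      = (dist x z ^ 2 - dist x' z ^ 2) / 2 * K (dist x z, dist x' z) := fun z =>
    hK ▸ hypAc_md_sub hσ _ _
  have h1 : |(dist x y ^ 2 - dist x' y ^ 2) / 2 - (dist x y' ^ 2 - dist x' y' ^ 2) / 2|
      ≤ dist x x' * dist y y' := by
    have q1 := (h.zero hσ).quad x x' y y'
    have q2 := (h.zero hσ).quad x x' y' y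
    rw [dist_comm y' y] at q2
    exact abs_le.2 ⟨by linarith, by linarith⟩
  have h2 : |(dist x y' ^ 2 - dist x' y' ^ 2) / 2| ≤ dist x x' * D := by
    rw [show (dist x y' ^ 2 - dist x' y' ^ 2) / 2
      = (dist x y' - dist x' y') * ((dist x y' + dist x' y') / 2) by ring, abs_mul]
    refine mul_le_mul (abs_dist_sub_le _ _ _) ?_ (abs_nonneg _) dist_nonneg
    rw [abs_of_nonneg (by positivity)]
    linarith [hD x y', hD x' y']
  have h3 : |K (dist x y, dist x' y) - K (dist x y', dist x' y')| ≤ L * dist y y' :=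
    (hL.dist_le_mul _ (hb y) _ (hb y')).trans (mul_le_mul_of_nonneg_left
      (max_le (dist_dist_dist_le_right x y y') (dist_dist_dist_le_right x' y y')) L.2)
  have h4 : ∀ a a' k k' : ℝ, |a * k - a' * k'| ≤ |a - a'| * |k| + |a'| * |k - k'| := fun a a' k k' => by
    rw [show a * k - a' * k' = (a - a') * k + a' * (k - k') by ring, ← abs_mul, ← abs_mul]
    exact abs_add_le _ _
  rw [Real.dist_eq, e, e]
  refine (h4 _ _ _ _).trans ((add_le_add (mul_le_mul h1 (hM _ (hb y)) (abs_nonneg _) (by positivity))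
    (mul_le_mul h2 h3 (abs_nonneg _) (by positivity))).trans_eq ?_)
  change _ = (M + D * L) * dist x x' * dist y y'
  ring

/-- variance inequality at a weighted barycentre: integrate `cmp` along the geodesic from `x₀` to
`x`, use minimality at `g a`, divide by `a` and let `a → 0`. -/
theorem Hyp.variance [CompactSpace X] [MeasurableSpace X] [BorelSpace X] (hσ : 0 ≤ σ)
    (h : Hyp σ X) {Ω : Type*} [MeasurableSpace Ω] (ν : Measure Ω) (p : Ω → X) (hp : Measurable p)
    (wt : Ω → ℝ) (hwt : Integrable wt ν) (hwt0 : 0 ≤ᵐ[ν] wt) (x₀ : X)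
    (hmin : ∀ x, ∫ o, wt o * kap σ x₀ (p o) ∂ν ≤ ∫ o, wt o * kap σ x (p o) ∂ν) (x : X) :
    ∫ o, wt o * kap σ x₀ (p o) ∂ν
        + kap σ x x₀ * (∫ o, wt o ∂ν + σ * ∫ o, wt o * kap σ x₀ (p o) ∂ν)
      ≤ ∫ o, wt o * kap σ x (p o) ∂ν := by
  rcases eq_or_ne x₀ x with rfl | hx
  · simp
  have hr : 0 < dist x₀ x := dist_pos.2 hx
  obtain ⟨g, hg⟩ := h x₀ x
  obtain ⟨M, hM⟩ := isCompact_univ.exists_bound_of_continuousOn
    (continuous_kap (X := X) σ).continuousOn
  have hi : ∀ z, Integrable (fun o => wt o * kap σ z (p o)) ν := fun z =>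
    hwt.mul_bdd (((lip_kap hσ z).elim fun _ h => h.continuous).measurable.comp hp).aestronglyMeasurable
      (Eventually.of_forall fun o => hM (z, p o) trivial)
  rw [kap_comm σ x x₀]
  obtain ⟨r, hr'⟩ : ∃ r, r = dist x₀ x := ⟨_, rfl⟩
  have key : ∀ a ∈ Icc 0 r, sn σ r * ∫ o, wt o * kap σ x₀ (p o) ∂ν
      ≤ sn σ (r - a) * ∫ o, wt o * kap σ x₀ (p o) ∂ν + sn σ a * ∫ o, wt o * kap σ x (p o) ∂ν
        + (sn σ r * md σ a - sn σ a * md σ r) * ∫ o, wt o ∂ν := fun a ha => by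
    subst hr'
    refine (mul_le_mul_of_nonneg_left (hmin (g a)) (sn_nonneg hσ hr.le)).trans ?_
    simp only [← integral_const_mul]
    rw [← integral_add ((hi _).const_mul _) ((hi _).const_mul _), ← integral_add
      (((hi _).const_mul _).fun_add ((hi _).const_mul _)) (hwt.const_mul _)]
    refine integral_mono_ae ((hi _).const_mul _)
      ((((hi _).const_mul _).fun_add ((hi _).const_mul _)).fun_add (hwt.const_mul _)) (hwt0.mono fun o ho => ?_)
    have h1 := mul_le_mul_of_nonneg_left (hg.cmp (p o) a ha) ho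
    rw [kap_comm σ (p o), kap_comm σ (p o), kap_comm σ (p o)] at h1
    beta_reduce
    linarith
  have hd := ((((hasDerivAt_sn hσ (r - 0)).comp_const_sub r 0).mul_const
    (∫ o, wt o * kap σ x₀ (p o) ∂ν)).fun_add ((hasDerivAt_sn hσ 0).mul_const
      (∫ o, wt o * kap σ x (p o) ∂ν))).fun_add ((((hasDerivAt_md hσ 0).const_mul (sn σ r)).fun_sub
        ((hasDerivAt_sn hσ 0).mul_const (md σ r))).mul_const (∫ o, wt o ∂ν))
  have h0 := ge_of_tendsto (b := 0) hd.tendsto_slope_zero_right (by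
    filter_upwards [Ioc_mem_nhdsGT (hr' ▸ hr : 0 < r)] with a ha
    refine smul_nonneg (inv_pos.2 ha.1).le ?_
    simpa using key a ⟨ha.1.le, ha.2⟩)
  rw [kap, ← hr']
  simp only [sub_zero, md_zero, sn_zero] at h0
  linarith

end Crest.Agent.R241
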