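import Crest.Agent.R241.Defs

/-!
# Model functions `sn`, `md` (elementary; case split `σ = 0` / `0 < σ`).  Helper prefix `trig_`.
-/

open MeasureTheory Set Filter Topology
open Crest.GeometryTopology.MetricCurrent
open Crest.GeometryTopology.Submanifold (Euc unitBallVol unitSphereArea)
open scoped ENNReal NNReal InnerProductSpace

noncomputable section

namespace Crest.Agent.R241

universe u

variable {σ : ℝ}

@[simp] theorem sn_zero (σ : ℝ) : sn σ 0 = 0 := by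
  simp [sn]

@[simp] theorem md_zero (σ : ℝ) : md σ 0 = 0 := by
  simp [md]

theorem sn_zero_left (r : ℝ) : sn 0 r = r := by simp [sn]
theorem md_zero_left (r : ℝ) : md 0 r = r ^ 2 / 2 := by simp [md]
theorem sn_neg (σ r : ℝ) : sn σ (-r) = -sn σ r := by
  unfold sn
  split_ifs
  · rfl
  · rw [mul_neg, Real.sinh_neg, neg_div]

theorem md_neg (σ r : ℝ) : md σ (-r) = md σ r := by
  simp only [md, neg_sq, mul_neg, Real.cosh_neg]

theorem md_abs (σ r : ℝ) : md σ |r| = md σ r := by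
  rcases abs_choice r with h | h <;> rw [h]
  exact md_neg σ r


theorem trig_cases (hσ : 0 ≤ σ) : (σ = 0 ∧ sn σ = (fun r => r) ∧ md σ = fun r => r ^ 2 / 2) ∨
    ∃ s : ℝ, 0 < s ∧ σ = s ^ 2 ∧ sn σ = (fun r => Real.sinh (s * r) / s) ∧
      md σ = fun r => (Real.cosh (s * r) - 1) / s ^ 2 := by
  rcases hσ.eq_or_lt with rfl | h
  · exact .inl ⟨rfl, funext sn_zero_left, funext md_zero_left⟩
  · refine .inr ⟨√σ, Real.sqrt_pos.2 h, (Real.sq_sqrt hσ).symm, funext fun r => if_neg h.ne', funext fun r => ?_⟩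
    rw [Real.sq_sqrt hσ]
    exact if_neg h.ne'

theorem hasDerivAt_md (hσ : 0 ≤ σ) (r : ℝ) : HasDerivAt (md σ) (sn σ r) r := by
  rcases trig_cases hσ with ⟨-, h1, h2⟩ | ⟨s, hs, -, h1, h2⟩ <;> rw [h1, h2]
  · exact ((hasDerivAt_pow 2 r).div_const 2).congr_deriv (by simp)
  · exact ((((hasDerivAt_id r).const_mul s).cosh.sub_const 1).div_const _).congr_deriv (by
      simp only [id]; field_simp)

theorem hasDerivAt_sn (hσ : 0 ≤ σ) (r : ℝ) : HasDerivAt (sn σ) (1 + σ * md σ r) r := by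
  rcases trig_cases hσ with ⟨h0, h1, h2⟩ | ⟨s, hs, h0, h1, h2⟩ <;> rw [h1, h2, h0]
  · exact (hasDerivAt_id r).congr_deriv (by simp)
  · exact (((hasDerivAt_id r).const_mul s).sinh.div_const _).congr_deriv (by
      simp only [id]; field_simp; ring)

theorem contDiff_md (σ : ℝ) : ContDiff ℝ (⊤ : ℕ∞) (md σ) := by
  unfold md
  split_ifs <;> fun_prop

theorem contDiff_sn (σ : ℝ) : ContDiff ℝ (⊤ : ℕ∞) (sn σ) := by
  unfold sn
  split_ifs <;> fun_prop

theorem continuous_md (σ : ℝ) : Continuous (md σ) := (contDiff_md σ).continuous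
theorem continuous_sn (σ : ℝ) : Continuous (sn σ) := (contDiff_sn σ).continuous
theorem sn_sq (hσ : 0 ≤ σ) (r : ℝ) : sn σ r ^ 2 = 2 * md σ r + σ * md σ r ^ 2 := by
  rcases trig_cases hσ with ⟨h0, h1, h2⟩ | ⟨s, hs, h0, h1, h2⟩ <;> rw [h1, h2, h0]
  · ring
  · simp only [div_pow, Real.sinh_sq]
    field_simp
    ring

theorem sn_add (hσ : 0 ≤ σ) (a b : ℝ) :
    sn σ (a + b) = sn σ a * (1 + σ * md σ b) + (1 + σ * md σ a) * sn σ b := by
  rcases trig_cases hσ with ⟨h0, h1, h2⟩ | ⟨s, hs, h0, h1, h2⟩ <;> rw [h1, h2, h0]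
  · ring
  · simp only [mul_add s, Real.sinh_add]
    field_simp
    ring

theorem md_add (hσ : 0 ≤ σ) (a b : ℝ) :
    md σ (a + b) = md σ a + md σ b + σ * md σ a * md σ b + sn σ a * sn σ b := by
  rcases trig_cases hσ with ⟨h0, h1, h2⟩ | ⟨s, hs, h0, h1, h2⟩ <;> rw [h1, h2, h0]
  · ring
  · simp only [mul_add s, Real.cosh_add]
    field_simp
    ring

theorem sn_sub (hσ : 0 ≤ σ) (a b : ℝ) :
    sn σ (a - b) = sn σ a * (1 + σ * md σ b) - (1 + σ * md σ a) * sn σ b := by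
  rw [sub_eq_add_neg, sn_add hσ, sn_neg, md_neg, mul_neg, ← sub_eq_add_neg]

theorem md_sub (hσ : 0 ≤ σ) (a b : ℝ) :
    md σ (a - b) = md σ a + md σ b + σ * md σ a * md σ b - sn σ a * sn σ b := by
  rw [sub_eq_add_neg, md_add hσ, sn_neg, md_neg, mul_neg, ← sub_eq_add_neg]

/-- `md r = 2 sn(r/2)²` -/
theorem md_eq_half (hσ : 0 ≤ σ) (r : ℝ) : md σ r = 2 * sn σ (r / 2) ^ 2 := by
  have h := md_add hσ (r / 2) (r / 2)
  rw [add_halves] at h
  linarith [sn_sq hσ (r / 2)]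

theorem trig_le_sn (hσ : 0 ≤ σ) {r : ℝ} (hr : 0 ≤ r) : r ≤ sn σ r := by
  rcases trig_cases hσ with ⟨-, h1, -⟩ | ⟨s, hs, -, h1, -⟩ <;> rw [h1]
  exact (le_div_iff₀' hs).2 (Real.self_le_sinh_iff.2 (by positivity))

theorem sq_le_md (hσ : 0 ≤ σ) (r : ℝ) : r ^ 2 / 2 ≤ md σ r := by
  have h := pow_le_pow_left₀ (by positivity) (trig_le_sn hσ (r := |r| / 2) (by positivity)) 2
  rw [div_pow, sq_abs] at h
  rw [← md_abs, md_eq_half hσ]
  linarith

theorem md_nonneg (hσ : 0 ≤ σ) (r : ℝ) : 0 ≤ md σ r := by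
  exact le_trans (by positivity) (sq_le_md hσ r)

theorem md_pos (hσ : 0 ≤ σ) {r : ℝ} (hr : r ≠ 0) : 0 < md σ r := by
  exact lt_of_lt_of_le (by positivity) (sq_le_md hσ r)

theorem le_sn (hσ : 0 ≤ σ) {r : ℝ} (hr : 0 ≤ r) : r ≤ sn σ r := by
  exact trig_le_sn hσ hr

theorem sn_nonneg (hσ : 0 ≤ σ) {r : ℝ} (hr : 0 ≤ r) : 0 ≤ sn σ r := hr.trans (le_sn hσ hr)
theorem sn_pos (hσ : 0 ≤ σ) {r : ℝ} (hr : 0 < r) : 0 < sn σ r := hr.trans_le (le_sn hσ hr.le)
theorem sn_le (hσ : 0 ≤ σ) {r : ℝ} (hr : 0 ≤ r) : sn σ r ≤ r * (1 + σ * md σ r) := by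
  have h : Monotone fun r => r * (1 + σ * md σ r) - sn σ r := by
    refine monotone_of_hasDerivAt_nonneg (f' := fun r => σ * (r * sn σ r)) (fun r => ?_) fun r => ?_
    · exact (((hasDerivAt_id' r).mul (((hasDerivAt_md hσ r).const_mul σ).const_add 1)).sub
        (hasDerivAt_sn hσ r)).congr_deriv (by ring)
    · refine mul_nonneg hσ ?_
      rcases le_total 0 r with h | h
      · exact mul_nonneg h (sn_nonneg hσ h)
      · rw [← neg_mul_neg, ← sn_neg]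
        exact mul_nonneg (neg_nonneg.2 h) (sn_nonneg hσ (neg_nonneg.2 h))
  simpa using h hr

theorem md_le (hσ : 0 ≤ σ) (r : ℝ) : md σ r ≤ r ^ 2 / 2 * (1 + σ * md σ r) := by
  have h0 : 0 ≤ |r| / 2 := by positivity
  have h1 := pow_le_pow_left₀ (sn_nonneg hσ h0) (sn_le hσ h0) 2
  have h2 := md_add hσ (|r| / 2) (|r| / 2)
  have h3 := md_eq_half hσ |r|
  rw [add_halves, md_abs] at h2
  rw [md_abs] at h3
  rw [mul_pow, div_pow, sq_abs] at h1
  have h4 : (1 + σ * md σ (|r| / 2)) ^ 2 ≤ 1 + σ * md σ r := by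
    rw [h2]
    nlinarith [mul_nonneg hσ (mul_self_nonneg (sn σ (|r| / 2)))]
  linarith [mul_le_mul_of_nonneg_left h4 (sq_nonneg r)]

theorem strictMono_sn (hσ : 0 ≤ σ) : StrictMono (sn σ) := by
  exact strictMono_of_hasDerivAt_pos (hasDerivAt_sn hσ) fun r =>
    add_pos_of_pos_of_nonneg one_pos (mul_nonneg hσ (md_nonneg hσ r))

theorem strictMonoOn_md (hσ : 0 ≤ σ) : StrictMonoOn (md σ) (Ici 0) := by
  intro a ha b _ hab
  have h := pow_lt_pow_left₀ (strictMono_sn hσ (div_lt_div_of_pos_right hab two_pos)) (sn_nonneg hσ (div_nonneg ha zero_le_two)) two_ne_zero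
  rw [md_eq_half hσ a, md_eq_half hσ b]
  linarith

theorem md_le_md (hσ : 0 ≤ σ) {a b : ℝ} (h : |a| ≤ b) : md σ a ≤ md σ b := by
  rw [← md_abs]
  exact (strictMonoOn_md hσ).monotoneOn (abs_nonneg a) ((abs_nonneg a).trans h) h

theorem le_of_md_le (hσ : 0 ≤ σ) {a b : ℝ} (hb : 0 ≤ b) (h : md σ a ≤ md σ b) : |a| ≤ b := by
  rwa [← md_abs σ a, (strictMonoOn_md hσ).le_iff_le (abs_nonneg a) hb] at h

/-- `sn a / sn r ≤ a / r` -/
theorem sn_mul_le (hσ : 0 ≤ σ) {a r : ℝ} (ha : 0 ≤ a) (har : a ≤ r) :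
    sn σ a * r ≤ a * sn σ r := by
  obtain ⟨t, ht, rfl⟩ : ∃ t, 0 ≤ t ∧ r = a + t := ⟨r - a, sub_nonneg.2 har, by ring⟩
  have h1 := mul_nonneg (mul_nonneg ha (sn_nonneg hσ ha)) (mul_nonneg hσ (md_nonneg hσ t))
  have h2 := mul_le_mul (sn_le hσ ha) (le_sn hσ ht) ht ((sn_nonneg hσ ha).trans (sn_le hσ ha))
  rw [sn_add hσ]
  linarith

/-- quasi-triangle inequality (`sn a sn b ≤ md a + md b + σ md a md b`, square it) -/
theorem md_add_le (hσ : 0 ≤ σ) (a b : ℝ) :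
    md σ (a + b) ≤ 2 * (md σ a + md σ b + σ * md σ a * md σ b) := by
  linarith [md_add hσ a b, md_sub hσ a b, md_nonneg hσ (a - b)]

theorem snk_eq (κ r : ℝ) : Crest.GeometryTopology.Submanifold.snk κ r = sn (-κ) r := by
  simp only [Crest.GeometryTopology.Submanifold.snk, sn, neg_eq_zero]

end Crest.Agent.R241
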